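import Mathlib
import Crest.Prelude.Def_AsymptoticConvexity

/-! Core lemmas on asymptotic uniform convexity: the tree obstruction. -/

namespace Crest.Agent.H11

open Crest.AnalysisR

variable {X : Type} [NormedAddCommGroup X] [NormedSpace ℝ X] [CompleteSpace X]

/-- Package. -/
abbrev RB (X : Type) [NormedAddCommGroup X] [NormedSpace ℝ X] [CompleteSpace X] : RealBanach :=
  ⟨X, inferInstance, inferInstance, inferInstance⟩

theorem isCof_ker {V : Type*} [NormedAddCommGroup V] [NormedSpace ℝ V] [FiniteDimensional ℝ V]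
    (T : X →L[ℝ] V) : (RB X).IsCof {x | T x = 0} := by
  refine ⟨LinearMap.ker (T : X →ₗ[ℝ] V), ?_, ?_, ?_⟩
  · ext x; simp
  · exact isClosed_eq T.continuous continuous_const
  · exact LinearEquiv.finiteDimensional (LinearMap.quotKerEquivRange (T : X →ₗ[ℝ] V)).symm

/-- The depth-`n` game predicate. -/
def Reach (X : Type) [NormedAddCommGroup X] [NormedSpace ℝ X] [CompleteSpace X] (C δ : ℝ) :
    ℕ → X → Prop
  | 0, z => ‖z‖ ≤ C
  | n + 1, z => ‖z‖ ≤ C ∧ ∀ F : Set X, (RB X).IsCof F → ∀ ε : ℝ, 0 < ε →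
      ∃ z' : X, Reach X C δ n z' ∧ ∃ y ∈ F, ‖z' - z - y‖ < ε ∧ δ ≤ ‖z' - z‖

theorem Reach.norm_le {C δ : ℝ} {n : ℕ} {z : X} (h : Reach X C δ n z) : ‖z‖ ≤ C := by
  cases n with
  | zero => exact h
  | succ n => exact h.1

theorem not_auc_of_reach {C δ : ℝ} (hδ : 0 < δ) (hR : ∀ n, ∃ z : X, Reach X C δ n z)
    (N : X → ℝ) (hN : (RB X).IsEquivNorm N) : ¬ (RB X).IsAUC N := by
  intro hA
  obtain ⟨hsub, hhom, a, b, ha, hab⟩ := hN
  have hsub' : ∀ x y : X, N (x + y) ≤ N x + N y := hsub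
  have hhom' : ∀ (r : ℝ) (x : X), N (r • x) = |r| * N x := hhom
  have hab1 : ∀ x : X, a * ‖x‖ ≤ N x := fun x => (hab x).1
  have hab2 : ∀ x : X, N x ≤ b * ‖x‖ := fun x => (hab x).2
  -- C > 0
  obtain ⟨z0, hz0⟩ := hR 1
  have hunivcof : (RB X).IsCof (Set.univ : Set X) := by
    have := isCof_ker (X := X) (0 : X →L[ℝ] ℝ)
    simpa using this
  obtain ⟨z1, hz1, -, -, -, hz01⟩ := hz0.2 Set.univ hunivcof 1 one_pos
  have hCpos : 0 < C := by
    have h1 := hz1.norm_le
    have h0 := hz0.norm_le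
    have : ‖z1 - z0‖ ≤ ‖z1‖ + ‖z0‖ := norm_sub_le _ _
    linarith
  have hb : 0 < b := by
    have h1 := hab1 (z1 - z0)
    have h2 := hab2 (z1 - z0)
    have hpos : 0 < ‖z1 - z0‖ := lt_of_lt_of_le hδ hz01
    have : a * ‖z1 - z0‖ ≤ b * ‖z1 - z0‖ := h1.trans h2
    have := le_of_mul_le_mul_right this hpos
    linarith
  have hneg : ∀ x : X, N (-x) = N x := by
    intro x
    have := hhom' (-1) x
    simpa using this
  set t0 : ℝ := a * (δ / 2) / (b * C) with ht0
  have ht0pos : 0 < t0 := by positivity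
  obtain ⟨c, hc, hA⟩ := hA t0 ht0pos
  have hA' : ∀ x : X, N x = 1 → ∃ F : Set X, (RB X).IsCof F ∧
    ∀ y ∈ F, N y = 1 → c ≤ N (x + t0 • y) - 1 := hA
  -- growth step
  have step : ∀ n (z : X), Reach X C δ (n + 1) z → 0 < N z →
      ∃ z', Reach X C δ n z' ∧ (1 + c / 2) * N z ≤ N z' := by
    intro n z hz hNz
    set ρ := N z with hρ
    have hx1 : N (ρ⁻¹ • z) = 1 := by
      rw [hhom', abs_of_pos (inv_pos.mpr hNz), ← hρ, inv_mul_cancel₀ hNz.ne']
    obtain ⟨F, hF, hFy⟩ := hA' _ hx1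
    set ε := min (δ / 2) (c * ρ / (2 * b)) with hε
    have hεpos : 0 < ε := lt_min (by positivity) (by positivity)
    obtain ⟨z', hz', y, hyF, hyε, hzz⟩ := hz.2 F hF ε hεpos
    refine ⟨z', hz', ?_⟩
    have hynorm : δ / 2 ≤ ‖y‖ := by
      have h1 : ‖z' - z‖ ≤ ‖z' - z - y‖ + ‖y‖ := by
        have := norm_add_le (z' - z - y) y
        simpa using this
      have h2 : ε ≤ δ / 2 := min_le_left _ _
      linarith
    have hNy : a * (δ / 2) ≤ N y := (mul_le_mul_of_nonneg_left hynorm ha.le).trans (hab1 y)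
    have hNypos : 0 < N y := lt_of_lt_of_le (by positivity) hNy
    have hρle : ρ ≤ b * C := by
      calc ρ ≤ b * ‖z‖ := hab2 z
        _ ≤ b * C := mul_le_mul_of_nonneg_left hz.norm_le hb.le
    -- u = y / N y
    have hFsub : ∀ r : ℝ, r • y ∈ F := by
      obtain ⟨S, hS, -, -⟩ := hF
      intro r
      rw [← hS] at hyF ⊢
      exact S.smul_mem r hyF
    have hu := hFy ((N y)⁻¹ • y) (hFsub _) (by
      rw [hhom', abs_of_pos (inv_pos.mpr hNypos), inv_mul_cancel₀ hNypos.ne'])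
    -- τ = N y / ρ ≥ t0
    set τ := N y / ρ with hτ
    have hτt : t0 ≤ τ := by
      rw [ht0, hτ]
      rw [div_le_div_iff₀ (by positivity) hNz]
      calc a * (δ / 2) * ρ ≤ N y * ρ := by gcongr
        _ ≤ N y * (b * C) := by gcongr
    have hτpos : 0 < τ := lt_of_lt_of_le ht0pos hτt
    -- convexity
    have hkey : (1 + c) * ρ ≤ N (z + y) := by
      have hdecomp : ρ⁻¹ • z + t0 • ((N y)⁻¹ • y) =
          (1 - t0 / τ) • (ρ⁻¹ • z) + (t0 / τ) • (ρ⁻¹ • (z + y)) := by
        have e1 : t0 / τ * ρ⁻¹ = t0 * (N y)⁻¹ := by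
          rw [hτ]; field_simp
        rw [smul_add, smul_add, smul_smul, smul_smul, smul_smul, smul_smul, e1, ← add_assoc,
          ← add_smul]
        congr 2
        rw [← e1]; ring
      have h1 : 1 + c ≤ (1 - t0 / τ) * 1 + (t0 / τ) * (ρ⁻¹ * N (z + y)) := by
        have h2 : 1 + c ≤ N (ρ⁻¹ • z + t0 • ((N y)⁻¹ • y)) := by linarith
        rw [hdecomp] at h2
        refine h2.trans ((hsub' _ _).trans ?_)
        rw [hhom', hhom' (t0 / τ), hx1, hhom' ρ⁻¹]
        rw [abs_of_nonneg (sub_nonneg.mpr ((div_le_one hτpos).mpr hτt)),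
          abs_of_nonneg (by positivity : (0:ℝ) ≤ t0 / τ), abs_of_pos (inv_pos.mpr hNz)]
      set s := t0 / τ with hs
      have hs0 : 0 < s := by positivity
      have hs1 : s ≤ 1 := (div_le_one hτpos).mpr hτt
      have h3 : s + c ≤ s * (ρ⁻¹ * N (z + y)) := by linarith
      have h4 : s * (1 + c) ≤ s * (ρ⁻¹ * N (z + y)) := by nlinarith
      have h5 : 1 + c ≤ ρ⁻¹ * N (z + y) := le_of_mul_le_mul_left h4 hs0
      have h6 := mul_le_mul_of_nonneg_left h5 hNz.le
      rw [← mul_assoc, mul_inv_cancel₀ hNz.ne', one_mul] at h6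
      linarith
    have h7 : N (z + y) ≤ N z' + N (z' - z - y) := by
      have h8 : z + y = z' + (-(z' - z - y)) := by abel
      calc N (z + y) = N (z' + (-(z' - z - y))) := by rw [← h8]
        _ ≤ N z' + N (-(z' - z - y)) := hsub' _ _
        _ = N z' + N (z' - z - y) := by rw [hneg]
    have h9 : N (z' - z - y) ≤ c * ρ / 2 := by
      calc N (z' - z - y) ≤ b * ‖z' - z - y‖ := hab2 _
        _ ≤ b * ε := by gcongr
        _ ≤ b * (c * ρ / (2 * b)) := by gcongr; exact min_le_right _ _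
        _ = c * ρ / 2 := by field_simp
    nlinarith
  have grow : ∀ n (z : X), Reach X C δ n z → 0 < N z → (1 + c / 2) ^ n * N z ≤ b * C := by
    intro n
    induction n with
    | zero =>
      intro z hz _
      simpa using (hab2 z).trans (mul_le_mul_of_nonneg_left hz.norm_le hb.le)
    | succ n ih =>
      intro z hz hNz
      obtain ⟨z', hz', hle⟩ := step n z hz hNz
      have hpos : 0 < N z' := lt_of_lt_of_le (by positivity) hle
      have := ih z' hz' hpos
      calc (1 + c / 2) ^ (n + 1) * N z = (1 + c / 2) ^ n * ((1 + c / 2) * N z) := by ring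
        _ ≤ (1 + c / 2) ^ n * N z' := by gcongr
        _ ≤ b * C := this
  -- start
  have start : ∀ n, ∃ z : X, Reach X C δ n z ∧ a * δ / 2 ≤ N z := by
    intro n
    have mono : ∀ n (z : X), Reach X C δ (n + 1) z → Reach X C δ n z := by
      intro n
      induction n with
      | zero => intro z hz; exact hz.1
      | succ n ih =>
        intro z hz
        refine ⟨hz.1, fun F hF ε hε => ?_⟩
        obtain ⟨z', hz', y, hy⟩ := hz.2 F hF ε hε
        exact ⟨z', ih z' hz', y, hy⟩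
    obtain ⟨z, hz⟩ := hR (n + 1)
    obtain ⟨z', hz', y, -, -, hd⟩ := hz.2 Set.univ hunivcof 1 one_pos
    by_cases h : a * δ / 2 ≤ N z
    · exact ⟨z, mono n z hz, h⟩
    · refine ⟨z', hz', ?_⟩
      push Not at h
      have h1 : a * δ ≤ N (z' - z) := (mul_le_mul_of_nonneg_left hd ha.le).trans (hab1 _)
      have h2 : N (z' - z) ≤ N z' + N z := by
        rw [sub_eq_add_neg]
        exact (hsub' _ _).trans (by rw [hneg])
      linarith
  have htend : Filter.Tendsto (fun n : ℕ => (1 + c / 2) ^ n * (a * δ / 2)) Filter.atTop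
      Filter.atTop := by
    apply Filter.Tendsto.atTop_mul_const (by positivity)
    exact tendsto_pow_atTop_atTop_of_one_lt (by linarith)
  obtain ⟨n, hn⟩ := (htend.eventually_gt_atTop (b * C)).exists
  obtain ⟨z, hz, hNz⟩ := start n
  have := grow n z hz (lt_of_lt_of_le (by positivity) hNz)
  have h2 : (1 + c / 2) ^ n * (a * δ / 2) ≤ (1 + c / 2) ^ n * N z := by gcongr
  linarith

/-- A set of bounded points from which one can always continue gives all depths. -/
theorem reach_of_closed {C δ : ℝ} (Z : Set X) (hZ : Z.Nonempty) (hb : ∀ z ∈ Z, ‖z‖ ≤ C)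
    (hs : ∀ z ∈ Z, ∀ F : Set X, (RB X).IsCof F → ∀ ε : ℝ, 0 < ε →
      ∃ z' ∈ Z, ∃ y ∈ F, ‖z' - z - y‖ < ε ∧ δ ≤ ‖z' - z‖) (n : ℕ) : ∃ z : X, Reach X C δ n z := by
  have key : ∀ n, ∀ z ∈ Z, Reach X C δ n z := by
    intro n
    induction n with
    | zero => exact hb
    | succ n ih =>
      intro z hz
      refine ⟨hb z hz, fun F hF ε hε => ?_⟩
      obtain ⟨z', hz', y, hy⟩ := hs z hz F hF ε hε
      exact ⟨z', ih z' hz', y, hy⟩
  obtain ⟨z, hz⟩ := hZ
  exact ⟨z, key n z hz⟩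

theorem not_finiteDimensional_of_not_auc
    (h : ∀ N : X → ℝ, (RB X).IsEquivNorm N → ¬ (RB X).IsAUC N) : ¬ FiniteDimensional ℝ X := by
  intro hfd
  refine h (fun x => ‖x‖) ⟨fun x y => norm_add_le x y, fun a x => ?_, 1, 1, one_pos, fun x => ?_⟩ ?_
  · exact norm_smul a x
  · constructor <;> simp
  · intro t _
    refine ⟨1, one_pos, fun x _ => ⟨{0}, ?_, ?_⟩⟩
    · have := isCof_ker (X := X) (ContinuousLinearMap.id ℝ X)
      simpa [Set.ext_iff] using this
    · intro y hy hy1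
      simp only [Set.mem_singleton_iff] at hy
      subst hy
      simp at hy1

end Crest.Agent.H11
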