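import Mathlib
import Crest.Prelude.Def_DaugavetL1
import Crest.Agent.H11.Core

/-! Daugavet property: weakly open versions. -/

namespace Crest.Agent.H11

open Crest.AnalysisR Crest.AnalysisR.L1Subspace

variable {V : Type} [NormedAddCommGroup V] [NormedSpace ℝ V]

theorem daug_slice_unit (hD : HasDaugavetProperty V) (x : V) (hx : ‖x‖ = 1) (φ : V →L[ℝ] ℝ)
    (hφ : ‖φ‖ = 1) (δ : ℝ) (hδ : 0 < δ) :
    ∃ z : V, ‖z‖ ≤ 1 ∧ 1 - δ < φ z ∧ 2 - δ < ‖x + z‖ := by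
  have h1 := hD φ x
  have h2 : ‖φ.smulRight x‖ = 1 := by
    rw [ContinuousLinearMap.norm_smulRight_apply, hφ, hx, mul_one]
  rw [h2] at h1
  -- choose u
  obtain ⟨u, hu1, hu2⟩ : ∃ u : V, ‖u‖ ≤ 1 ∧
      2 - δ / 2 < ‖(ContinuousLinearMap.id ℝ V + φ.smulRight x) u‖ := by
    by_contra hcon
    push Not at hcon
    have hle : ‖ContinuousLinearMap.id ℝ V + φ.smulRight x‖ ≤ max (2 - δ / 2) 0 := by
      refine ContinuousLinearMap.opNorm_le_of_unit_norm (le_max_right _ _) fun u hu => ?_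
      exact (hcon u hu.le).trans (le_max_left _ _)
    rw [h1] at hle
    rcases le_max_iff.mp hle with h | h <;> linarith
  have hval : (ContinuousLinearMap.id ℝ V + φ.smulRight x) u = u + φ u • x := by
    simp
  rw [hval] at hu2
  have habs : 1 - δ / 2 < |φ u| := by
    have : ‖u + φ u • x‖ ≤ ‖u‖ + |φ u| * 1 := by
      refine (norm_add_le _ _).trans ?_
      rw [norm_smul, hx, Real.norm_eq_abs]
    linarith
  have hle1 : |φ u| ≤ 1 := by
    have := φ.le_opNorm u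
    rw [hφ, one_mul] at this
    exact this.trans hu1
  have key : ∀ z : V, ‖z‖ ≤ 1 → φ z = |φ u| → ‖z + φ z • x‖ = ‖u + φ u • x‖ →
      ‖z‖ ≤ 1 ∧ 1 - δ < φ z ∧ 2 - δ < ‖x + z‖ := by
    intro z hz hz2 hz3
    refine ⟨hz, by rw [hz2]; linarith, ?_⟩
    have h4 : z + φ z • x = (x + z) - (1 - φ z) • x := by
      rw [sub_smul, one_smul]; abel
    have h5 : ‖z + φ z • x‖ ≤ ‖x + z‖ + (1 - φ z) := by
      rw [h4]
      refine (norm_sub_le _ _).trans ?_
      rw [norm_smul, hx, Real.norm_eq_abs, abs_of_nonneg (by rw [hz2]; linarith), mul_one]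
    rw [hz3, hz2] at h5
    linarith
  rcases abs_cases (φ u) with ⟨h, -⟩ | ⟨h, -⟩
  · exact ⟨u, key u hu1 h.symm rfl⟩
  · refine ⟨-u, key (-u) (by rwa [norm_neg]) (by rw [map_neg, h]) ?_⟩
    rw [map_neg, neg_smul, ← neg_add, norm_neg]

theorem daug_slice (hD : HasDaugavetProperty V) (e : V) (he : ‖e‖ = 1) (v : V) (s : ℝ)
    (hs : 0 ≤ s) (φ : V →L[ℝ] ℝ) (δ : ℝ) (hδ : 0 < δ) :
    ∃ z : V, ‖z‖ ≤ 1 ∧ ‖φ‖ - δ < φ z ∧ ‖v‖ + s - δ ≤ ‖v + s • z‖ := by
  -- normalised functional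
  obtain ⟨φ', hφ', c, hc, hφc⟩ : ∃ φ' : V →L[ℝ] ℝ, ‖φ'‖ = 1 ∧ ∃ c : ℝ, 0 ≤ c ∧ φ = c • φ' := by
    by_cases h : φ = 0
    · have : Nontrivial V := ⟨e, 0, by rintro rfl; simp at he⟩
      obtain ⟨ψ, hψ, -⟩ := exists_dual_vector' ℝ e
      exact ⟨ψ, hψ, 0, le_rfl, by rw [h, zero_smul]⟩
    · have hpos : 0 < ‖φ‖ := norm_pos_iff.mpr h
      refine ⟨‖φ‖⁻¹ • φ, ?_, ‖φ‖, hpos.le, ?_⟩
      · rw [norm_smul, norm_inv, norm_norm, inv_mul_cancel₀ hpos.ne']
      · rw [smul_smul, mul_inv_cancel₀ hpos.ne', one_smul]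
  have hφn : ‖φ‖ = c := by
    rw [hφc, norm_smul, hφ', mul_one, Real.norm_eq_abs, abs_of_nonneg hc]
  -- unit vector
  obtain ⟨e', he'1, hve⟩ : ∃ e' : V, ‖e'‖ = 1 ∧ v = ‖v‖ • e' := by
    by_cases h : v = 0
    · exact ⟨e, he, by rw [h]; simp⟩
    · have hpos : 0 < ‖v‖ := norm_pos_iff.mpr h
      refine ⟨‖v‖⁻¹ • v, ?_, ?_⟩
      · rw [norm_smul, norm_inv, norm_norm, inv_mul_cancel₀ hpos.ne']
      · rw [smul_smul, mul_inv_cancel₀ hpos.ne', one_smul]
  set m := ‖v‖ + s + c + 1 with hm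
  have hmpos : 0 < m := by positivity
  set ε := δ / m with hε
  have hεpos : 0 < ε := by positivity
  have hmε : m * ε = δ := by rw [hε]; field_simp
  obtain ⟨z, hz1, hz2, hz3⟩ := daug_slice_unit hD e' he'1 φ' hφ' ε hεpos
  refine ⟨z, hz1, ?_, ?_⟩
  · rw [hφn, hφc]
    simp only [smul_apply, smul_eq_mul]
    have h1 : c * (1 - ε) ≤ c * φ' z := by gcongr
    have h2 : c * ε < δ := by
      rw [← hmε]
      have : c < m := by rw [hm]; linarith [norm_nonneg v]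
      exact mul_lt_mul_of_pos_right this hεpos
    linarith
  · have hvn := norm_nonneg v
    rcases le_total s ‖v‖ with h | h
    · -- v + s z = ‖v‖ (e' + z) - (‖v‖ - s) z
      have h1 : v + s • z = ‖v‖ • (e' + z) - (‖v‖ - s) • z := by
        rw [smul_add, ← hve, sub_smul]; abel
      have h2 : ‖‖v‖ • (e' + z)‖ ≤ ‖v + s • z‖ + ‖(‖v‖ - s) • z‖ := by
        have : ‖v‖ • (e' + z) = (v + s • z) + (‖v‖ - s) • z := by rw [h1]; abel
        rw [this]; exact norm_add_le _ _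
      have h3 : ‖(‖v‖ - s) • z‖ ≤ (‖v‖ - s) := by
        rw [norm_smul, Real.norm_eq_abs, abs_of_nonneg (by linarith)]
        exact mul_le_of_le_one_right (by linarith) hz1
      have h4 : ‖v‖ * (2 - ε) ≤ ‖‖v‖ • (e' + z)‖ := by
        rw [norm_smul, norm_norm]
        gcongr
      have h5 : ‖v‖ * ε ≤ δ := by
        rw [← hmε]; gcongr; rw [hm]; linarith
      linarith
    · have h1 : v + s • z = s • (e' + z) - (s - ‖v‖) • e' := by
        rw [smul_add, sub_smul, ← hve]; abel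
      have h2 : ‖s • (e' + z)‖ ≤ ‖v + s • z‖ + ‖(s - ‖v‖) • e'‖ := by
        have : s • (e' + z) = (v + s • z) + (s - ‖v‖) • e' := by rw [h1]; abel
        rw [this]; exact norm_add_le _ _
      have h3 : ‖(s - ‖v‖) • e'‖ = (s - ‖v‖) := by
        rw [norm_smul, Real.norm_eq_abs, abs_of_nonneg (by linarith), he'1, mul_one]
      have h4 : s * (2 - ε) ≤ ‖s • (e' + z)‖ := by
        rw [norm_smul, Real.norm_eq_abs, abs_of_nonneg hs]
        gcongr
      have h5 : s * ε ≤ δ := by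
        rw [← hmε]; gcongr; rw [hm]; linarith
      linarith

/-- points that can be approximated by good vectors -/
def Good {n : ℕ} (T : V →L[ℝ] EuclideanSpace ℝ (Fin n)) (ε : ℝ) : Set (EuclideanSpace ℝ (Fin n)) :=
  {p | ∀ (v : V) (s : ℝ), 0 ≤ s → ∀ δ : ℝ, 0 < δ →
    ∃ z : V, ‖z‖ ≤ 1 ∧ ‖T z - p‖ ≤ ε ∧ ‖v‖ + s - δ ≤ ‖v + s • z‖}

theorem convex_good {n : ℕ} (T : V →L[ℝ] EuclideanSpace ℝ (Fin n)) (ε : ℝ) :
    Convex ℝ (Good T ε) := by
  intro p hp q hq a b ha hb hab v s hs δ hδ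
  obtain ⟨z1, h1, h2, h3⟩ := hp v (a * s) (by positivity) (δ / 2) (by positivity)
  obtain ⟨z2, g1, g2, g3⟩ := hq (v + (a * s) • z1) (b * s) (by positivity) (δ / 2) (by positivity)
  refine ⟨a • z1 + b • z2, ?_, ?_, ?_⟩
  · calc ‖a • z1 + b • z2‖ ≤ ‖a • z1‖ + ‖b • z2‖ := norm_add_le _ _
      _ = a * ‖z1‖ + b * ‖z2‖ := by
        rw [norm_smul, norm_smul, Real.norm_eq_abs, Real.norm_eq_abs, abs_of_nonneg ha,
          abs_of_nonneg hb]
      _ ≤ a * 1 + b * 1 := by gcongr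
      _ = 1 := by linarith
  · have : T (a • z1 + b • z2) - (a • p + b • q) = a • (T z1 - p) + b • (T z2 - q) := by
      rw [map_add, map_smul, map_smul, smul_sub, smul_sub]; abel
    rw [this]
    calc ‖a • (T z1 - p) + b • (T z2 - q)‖ ≤ ‖a • (T z1 - p)‖ + ‖b • (T z2 - q)‖ := norm_add_le _ _
      _ = a * ‖T z1 - p‖ + b * ‖T z2 - q‖ := by
        rw [norm_smul, norm_smul, Real.norm_eq_abs, Real.norm_eq_abs, abs_of_nonneg ha,
          abs_of_nonneg hb]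
      _ ≤ a * ε + b * ε := by gcongr
      _ = ε := by rw [← add_mul, hab, one_mul]
  · have : v + s • (a • z1 + b • z2) = v + (a * s) • z1 + (b * s) • z2 := by
      rw [smul_add, smul_smul, smul_smul, mul_comm s a, mul_comm s b]; abel
    rw [this]
    have : ‖v‖ + s - δ = (‖v‖ + a * s - δ / 2) + b * s - δ / 2 := by
      have : s = a * s + b * s := by rw [← add_mul, hab, one_mul]
      linarith
    rw [this]
    linarith

/-- farthest points are good -/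
theorem far_good (hD : HasDaugavetProperty V) (e : V) (he : ‖e‖ = 1) {n : ℕ}
    (T : V →L[ℝ] EuclideanSpace ℝ (Fin n)) (ε : ℝ) (hε : 0 < ε)
    (c κ : EuclideanSpace ℝ (Fin n)) (hκ : κ ∈ closure (T '' Metric.closedBall 0 1))
    (hmax : ∀ κ' ∈ closure (T '' Metric.closedBall 0 1), ‖κ' - c‖ ≤ ‖κ - c‖) :
    κ ∈ Good T ε := by
  intro v s hs δ hδ
  set w := κ - c with hw
  let φ : V →L[ℝ] ℝ := (innerSL ℝ w).comp T
  have hφ : ∀ z, φ z = inner ℝ w (T z) := fun z => rfl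
  have hle : inner ℝ w κ ≤ ‖φ‖ := by
    have hcl : closure (T '' Metric.closedBall 0 1) ⊆ {p | inner ℝ w p ≤ ‖φ‖} := by
      refine closure_minimal ?_ (isClosed_le (by fun_prop) continuous_const)
      rintro _ ⟨z, hz, rfl⟩
      rw [Metric.mem_closedBall, dist_zero_right] at hz
      have := φ.le_opNorm z
      calc inner ℝ w (T z) = φ z := (hφ z).symm
        _ ≤ ‖φ z‖ := le_abs_self _
        _ ≤ ‖φ‖ * ‖z‖ := this
        _ ≤ ‖φ‖ * 1 := by gcongr
        _ = ‖φ‖ := mul_one _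
    exact hcl hκ
  obtain ⟨z, hz1, hz2, hz3⟩ := daug_slice hD e he v s hs φ (min δ (ε ^ 2 / 2))
    (lt_min hδ (by positivity))
  refine ⟨z, hz1, ?_, by linarith [min_le_left δ (ε ^ 2 / 2)]⟩
  have hTz : T z ∈ closure (T '' Metric.closedBall 0 1) :=
    subset_closure ⟨z, by rwa [Metric.mem_closedBall, dist_zero_right], rfl⟩
  have h1 := hmax _ hTz
  have h2 : inner ℝ w κ - ε ^ 2 / 2 < inner ℝ w (T z) := by
    rw [← hφ]; linarith [min_le_right δ (ε ^ 2 / 2)]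
  have h3 : ‖T z - κ‖ ^ 2 = ‖T z - c‖ ^ 2 + ‖w‖ ^ 2 - 2 * inner ℝ w (T z - c) := by
    have : T z - κ = (T z - c) - w := by rw [hw]; abel
    rw [this, norm_sub_sq_real, real_inner_comm]; ring
  have h4 : inner ℝ w (T z - c) = inner ℝ w (T z) - inner ℝ w κ + ‖w‖ ^ 2 := by
    have : T z - c = (T z - κ) + w := by rw [hw]; abel
    rw [this, inner_add_right, inner_sub_right, real_inner_self_eq_norm_sq]
  have h5 : ‖T z - c‖ ^ 2 ≤ ‖w‖ ^ 2 := by gcongr
  have h6 : ‖T z - κ‖ ^ 2 ≤ ε ^ 2 := by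
    rw [h3, h4]; linarith
  exact (sq_le_sq₀ (norm_nonneg _) hε.le).mp h6

theorem ball_good (hD : HasDaugavetProperty V) (e : V) (he : ‖e‖ = 1) {n : ℕ}
    (T : V →L[ℝ] EuclideanSpace ℝ (Fin n)) (ε : ℝ) (hε : 0 < ε) (x : V) (hx : ‖x‖ ≤ 1) :
    T x ∈ closure (Good T ε) := by
  by_contra hcon
  set K := closure (T '' Metric.closedBall 0 1) with hK
  have hKc : IsCompact K := by
    refine Metric.isCompact_of_isClosed_isBounded isClosed_closure ?_
    refine Bornology.IsBounded.closure ?_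
    rw [isBounded_iff_forall_norm_le]
    refine ⟨‖T‖, ?_⟩
    rintro _ ⟨z, hz, rfl⟩
    rw [Metric.mem_closedBall, dist_zero_right] at hz
    exact (T.le_opNorm z).trans (mul_le_of_le_one_right (norm_nonneg _) hz)
  have hκ0 : T x ∈ K := subset_closure ⟨x, by rwa [Metric.mem_closedBall, dist_zero_right], rfl⟩
  obtain ⟨f, u, hfu, huf⟩ := geometric_hahn_banach_closed_point (convex_good T ε).closure
    isClosed_closure hcon
  obtain ⟨B, hB⟩ := isBounded_iff_forall_norm_le.mp hKc.isBounded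
  have hB0 : 0 ≤ B := (norm_nonneg _).trans (hB _ hκ0)
  let w := (InnerProductSpace.toDual ℝ (EuclideanSpace ℝ (Fin n))).symm f
  have hw : ∀ p, f p = inner ℝ w p := fun p => by
    rw [InnerProductSpace.toDual_symm_apply]
  set γ := f (T x) - u with hγ
  have hγpos : 0 < γ := by rw [hγ]; linarith
  set R := ((2 * B) ^ 2 + 1) / γ with hR
  have hRpos : 0 < R := by positivity
  set c := T x - R • w with hc
  obtain ⟨κ, hκ, hκmax⟩ := hKc.exists_isMaxOn ⟨_, hκ0⟩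
    (f := fun p => ‖p - c‖) (by fun_prop)
  have hgood := far_good hD e he T ε hε c κ hκ (fun κ' hκ' => hκmax hκ')
  have h1 := hfu κ (subset_closure hgood)
  have h2 : ‖T x - c‖ ≤ ‖κ - c‖ := hκmax hκ0
  have h3 : T x - c = R • w := by rw [hc]; abel
  have h4 : κ - c = (κ - T x) + R • w := by rw [hc]; abel
  have h5 : ‖R • w‖ ^ 2 ≤ ‖κ - T x‖ ^ 2 + 2 * (R * inner ℝ (κ - T x) w) + ‖R • w‖ ^ 2 := by
    have := norm_add_sq_real (κ - T x) (R • w)
    rw [inner_smul_right] at this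
    rw [← this, ← h4, ← h3]
    gcongr
  have h6 : ‖κ - T x‖ ≤ 2 * B := by
    calc ‖κ - T x‖ ≤ ‖κ‖ + ‖T x‖ := norm_sub_le _ _
      _ ≤ B + B := add_le_add (hB _ hκ) (hB _ hκ0)
      _ = 2 * B := by ring
  have h7 : inner ℝ (κ - T x) w = f κ - f (T x) := by
    rw [real_inner_comm, inner_sub_right, ← hw, ← hw]
  rw [h7] at h5
  have h8 : ‖κ - T x‖ ^ 2 ≤ (2 * B) ^ 2 := by gcongr
  have h9 : f κ - f (T x) < - γ := by rw [hγ]; linarith
  have h10 : R * (f κ - f (T x)) < R * (-γ) := mul_lt_mul_of_pos_left h9 hRpos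
  have h11 : R * γ = (2 * B) ^ 2 + 1 := by rw [hR]; field_simp
  nlinarith

/-- The weakly-open version. -/
theorem daug_cof [CompleteSpace V] (hD : HasDaugavetProperty V) (x : V) (hx : ‖x‖ = 1) (F : Set V)
    (hF : (RB V).IsCof F) (ε : ℝ) (hε : 0 < ε) :
    ∃ z : V, ‖z‖ ≤ 1 ∧ 2 - ε ≤ ‖z - x‖ ∧ ∃ w ∈ F, ‖z - x - w‖ < ε := by
  obtain ⟨S, hSF, hcl, hfd⟩ := hF
  have hcl' : IsClosed (S : Set V) := by rw [hSF]; exact hcl
  have : IsClosed (S : Set V) := hcl'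
  have : FiniteDimensional ℝ (V ⧸ S) := hfd
  let π : V →L[ℝ] (V ⧸ S) := S.mkQL
  let e : (V ⧸ S) ≃L[ℝ] EuclideanSpace ℝ (Fin (Module.finrank ℝ (V ⧸ S))) :=
    ContinuousLinearEquiv.ofFinrankEq (by simp)
  let T : V →L[ℝ] EuclideanSpace ℝ (Fin (Module.finrank ℝ (V ⧸ S))) := e.toContinuousLinearMap.comp π
  -- quantitative inverse
  set L := ‖(e.symm : EuclideanSpace ℝ (Fin (Module.finrank ℝ (V ⧸ S))) →L[ℝ] (V ⧸ S))‖ + 1 with hL
  have hLpos : 0 < L := by positivity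
  have hinv : ∀ v : V, ‖π v‖ ≤ L * ‖T v‖ := by
    intro v
    have h1 : π v = (e.symm : EuclideanSpace ℝ (Fin (Module.finrank ℝ (V ⧸ S))) →L[ℝ] (V ⧸ S)) (T v) := by
      simp [T]
    calc ‖π v‖ = ‖(e.symm : EuclideanSpace ℝ (Fin (Module.finrank ℝ (V ⧸ S))) →L[ℝ] (V ⧸ S)) (T v)‖ := by
          rw [← h1]
      _ ≤ ‖(e.symm : EuclideanSpace ℝ (Fin (Module.finrank ℝ (V ⧸ S))) →L[ℝ] (V ⧸ S))‖ * ‖T v‖ :=
          ContinuousLinearMap.le_opNorm _ _
      _ ≤ L * ‖T v‖ := by gcongr; rw [hL]; linarith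
  set ε' := ε / (4 * L) with hε'
  have hε'pos : 0 < ε' := by positivity
  have hx1 := ball_good hD x hx T ε' hε'pos x hx.le
  obtain ⟨p, hp, hpx⟩ := Metric.mem_closure_iff.mp hx1 ε' hε'pos
  obtain ⟨z, hz1, hz2, hz3⟩ := hp (-x) 1 zero_le_one ε hε
  refine ⟨z, hz1, ?_, ?_⟩
  · rw [norm_neg, hx, one_smul] at hz3
    have : z - x = -x + z := by abel
    rw [this]; linarith
  · have h1 : ‖T (z - x)‖ ≤ 2 * ε' := by
      have : T (z - x) = (T z - p) - (T x - p) := by rw [map_sub]; abel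
      rw [this]
      rw [dist_eq_norm] at hpx
      exact (norm_sub_le _ _).trans (by linarith)
    have h2 : ‖π (z - x)‖ < ε := by
      calc ‖π (z - x)‖ ≤ L * ‖T (z - x)‖ := hinv _
        _ ≤ L * (2 * ε') := by gcongr
        _ = ε / 2 := by rw [hε']; field_simp; norm_num
        _ < ε := by linarith
    obtain ⟨m, hm1, hm2⟩ := Submodule.Quotient.norm_mk_lt (π (z - x))
      (ε := ε - ‖π (z - x)‖) (by linarith)
    refine ⟨z - x - m, ?_, ?_⟩
    · rw [← hSF]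
      have : π (z - x - m) = 0 := by
        rw [map_sub]
        have : π m = π (z - x) := hm1
        rw [this, sub_self]
      exact (Submodule.Quotient.mk_eq_zero S).mp this
    · simpa using by linarith

end Crest.Agent.H11
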