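import Mathlib
import Crest.Prelude.Def_Diamond
import Crest.Agent.H11.Core

/-! Distances in diamonds and the distortion bound. -/

namespace Crest.Agent.H11

open Crest.AnalysisR Filter Topology

/-- a 1-Lipschitz function on vertices grows at most by the length of a walk -/
theorem walk_lip {V : Type} (G : SimpleGraph V) (h : V → ℕ)
    (hl : ∀ u v, G.Adj u v → h v ≤ h u + 1) {u v : V} (p : G.Walk u v) : h v ≤ h u + p.length := by
  induction p with
  | nil => simp
  | cons hadj p ih =>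
    rw [SimpleGraph.Walk.length_cons]
    have := hl _ _ hadj
    omega

theorem dist_lip {V : Type} (G : SimpleGraph V) (hc : G.Connected) (h : V → ℕ)
    (hl : ∀ u v, G.Adj u v → h v ≤ h u + 1) (u v : V) : h v ≤ h u + G.dist u v := by
  obtain ⟨p, hp⟩ := (hc u v).exists_walk_length_eq_dist
  rw [← hp]
  exact walk_lip G h hl p

theorem src_ne_tgt : ∀ (k : ℕ) (e : DiamondEdge k), diamondSrc k e ≠ diamondTgt k e
  | 0, _ => by simp [diamondSrc, diamondTgt]
  | k + 1, (e, i, b) => by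
    cases b <;> simp [diamondSrc, diamondTgt]

theorem adj_src_tgt (k : ℕ) (e : DiamondEdge k) :
    (diamondGraph k).Adj (diamondSrc k e) (diamondTgt k e) := by
  unfold diamondGraph
  rw [SimpleGraph.fromRel_adj]
  exact ⟨src_ne_tgt k e, Or.inl ⟨e, rfl, rfl⟩⟩

/-- adjacency in the next diamond -/
theorem adj_succ_iff (k : ℕ) (a b : DiamondVertex (k + 1)) (h : (diamondGraph (k + 1)).Adj a b) :
    ∃ (e : DiamondEdge k) (i : ℕ),
      (a = Sum.inl (diamondSrc k e) ∧ b = Sum.inr (e, i)) ∨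
      (a = Sum.inr (e, i) ∧ b = Sum.inl (diamondTgt k e)) ∨
      (b = Sum.inl (diamondSrc k e) ∧ a = Sum.inr (e, i)) ∨
      (b = Sum.inr (e, i) ∧ a = Sum.inl (diamondTgt k e)) := by
  unfold diamondGraph at h
  rw [SimpleGraph.fromRel_adj] at h
  obtain ⟨-, ⟨⟨e, i, b'⟩, h1, h2⟩ | ⟨⟨e, i, b'⟩, h1, h2⟩⟩ := h
  · refine ⟨e, i, ?_⟩
    cases b' with
    | false => left; exact ⟨h1.symm, h2.symm⟩
    | true => right; left; exact ⟨h1.symm, h2.symm⟩
  · refine ⟨e, i, ?_⟩
    cases b' with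
    | false => right; right; left; exact ⟨h1.symm, h2.symm⟩
    | true => right; right; right; exact ⟨h1.symm, h2.symm⟩

theorem adj_inl_inr_src (k : ℕ) (e : DiamondEdge k) (i : ℕ) :
    (diamondGraph (k + 1)).Adj (Sum.inl (diamondSrc k e)) (Sum.inr (e, i)) :=
  adj_src_tgt (k + 1) (e, i, false)

theorem adj_inr_inl_tgt (k : ℕ) (e : DiamondEdge k) (i : ℕ) :
    (diamondGraph (k + 1)).Adj (Sum.inr (e, i)) (Sum.inl (diamondTgt k e)) :=
  adj_src_tgt (k + 1) (e, i, true)

theorem exists_edge_of_adj (k : ℕ) (u v : DiamondVertex k) (h : (diamondGraph k).Adj u v) :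
    ∃ e : DiamondEdge k, (diamondSrc k e = u ∧ diamondTgt k e = v) ∨
      (diamondSrc k e = v ∧ diamondTgt k e = u) := by
  unfold diamondGraph at h
  rw [SimpleGraph.fromRel_adj] at h
  obtain ⟨-, ⟨e, h1, h2⟩ | ⟨e, h1, h2⟩⟩ := h
  · exact ⟨e, Or.inl ⟨h1, h2⟩⟩
  · exact ⟨e, Or.inr ⟨h1, h2⟩⟩

theorem diamond_connected (k : ℕ) : (diamondGraph k).Connected := by
  induction k with
  | zero =>
    have hadj : (diamondGraph 0).Adj false true := adj_src_tgt 0 ()
    have hne : Nonempty (DiamondVertex 0) := ⟨false⟩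
    refine ⟨fun u v => ?_⟩
    cases u <;> cases v
    · exact SimpleGraph.Reachable.refl _
    · exact hadj.reachable
    · exact hadj.symm.reachable
    · exact SimpleGraph.Reachable.refl _
  | succ k ih =>
    have hne : Nonempty (DiamondVertex (k + 1)) := ⟨Sum.inl ih.nonempty.some⟩
    have hstep : ∀ u v, (diamondGraph k).Adj u v →
        (diamondGraph (k + 1)).Reachable (Sum.inl u) (Sum.inl v) := by
      intro u v huv
      obtain ⟨e, ⟨rfl, rfl⟩ | ⟨rfl, rfl⟩⟩ := exists_edge_of_adj k u v huv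
      · exact (adj_inl_inr_src k e 0).reachable.trans (adj_inr_inl_tgt k e 0).reachable
      · exact ((adj_inl_inr_src k e 0).reachable.trans (adj_inr_inl_tgt k e 0).reachable).symm
    have hinl : ∀ u v, (diamondGraph (k + 1)).Reachable (Sum.inl u) (Sum.inl v) := by
      intro u v
      obtain ⟨p⟩ := ih u v
      induction p with
      | nil => exact SimpleGraph.Reachable.refl _
      | cons hadj p ihp => exact (hstep _ _ hadj).trans ihp
    have hany : ∀ a : DiamondVertex (k + 1), ∃ u, (diamondGraph (k + 1)).Reachable a (Sum.inl u) := by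
      rintro (u | ⟨e, i⟩)
      · exact ⟨u, SimpleGraph.Reachable.refl _⟩
      · exact ⟨_, (adj_inr_inl_tgt k e i).reachable⟩
    refine ⟨fun a b => ?_⟩
    obtain ⟨u, hu⟩ := hany a
    obtain ⟨v, hv⟩ := hany b
    exact (hu.trans (hinl u v)).trans hv.symm

/-- distance function on the next diamond -/
noncomputable def dfun (k : ℕ) (u : DiamondVertex k) : DiamondVertex (k + 1) → ℕ
  | Sum.inl v => 2 * diamondDist k u v
  | Sum.inr (e, _) => 2 * min (diamondDist k u (diamondSrc k e)) (diamondDist k u (diamondTgt k e)) + 1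

theorem dist_src_tgt (k : ℕ) (u : DiamondVertex k) (e : DiamondEdge k) :
    diamondDist k u (diamondSrc k e) ≤ diamondDist k u (diamondTgt k e) + 1 ∧
    diamondDist k u (diamondTgt k e) ≤ diamondDist k u (diamondSrc k e) + 1 := by
  have h1 : (diamondGraph k).dist (diamondSrc k e) (diamondTgt k e) = 1 :=
    SimpleGraph.dist_eq_one_iff_adj.mpr (adj_src_tgt k e)
  have h2 : (diamondGraph k).dist (diamondTgt k e) (diamondSrc k e) = 1 :=
    SimpleGraph.dist_eq_one_iff_adj.mpr (adj_src_tgt k e).symm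
  unfold diamondDist
  constructor
  · have := (diamond_connected k).dist_triangle (u := u) (v := diamondTgt k e)
      (w := diamondSrc k e)
    omega
  · have := (diamond_connected k).dist_triangle (u := u) (v := diamondSrc k e)
      (w := diamondTgt k e)
    omega

theorem dfun_lip (k : ℕ) (u : DiamondVertex k) (a b : DiamondVertex (k + 1))
    (h : (diamondGraph (k + 1)).Adj a b) : dfun k u b ≤ dfun k u a + 1 := by
  obtain ⟨e, i, h⟩ := adj_succ_iff k a b h
  have hd := dist_src_tgt k u e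
  rcases h with ⟨rfl, rfl⟩ | ⟨rfl, rfl⟩ | ⟨rfl, rfl⟩ | ⟨rfl, rfl⟩ <;> simp only [dfun] <;> omega

theorem dist_inl (k : ℕ) (u v : DiamondVertex k) :
    2 * diamondDist k u v ≤ diamondDist (k + 1) (Sum.inl u) (Sum.inl v) := by
  have h := dist_lip (diamondGraph (k + 1)) (diamond_connected (k + 1)) (dfun k u)
    (dfun_lip k u) (Sum.inl u) (Sum.inl v)
  have h0 : dfun k u (Sum.inl u) = 0 := by
    simp [dfun, diamondDist]
  rw [h0, zero_add] at h
  exact h

theorem dist_inr (k : ℕ) (e : DiamondEdge k) (i j : ℕ) (hij : i ≠ j) :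
    2 ≤ diamondDist (k + 1) (Sum.inr (e, i)) (Sum.inr (e, j)) := by
  unfold diamondDist
  have hne : (Sum.inr (e, i) : DiamondVertex (k + 1)) ≠ Sum.inr (e, j) := by
    intro h
    have := Sum.inr_injective h
    exact hij (Prod.ext_iff.mp this).2
  have hpos := (diamond_connected (k + 1)).pos_dist_of_ne hne
  have h1 : (diamondGraph (k + 1)).dist (Sum.inr (e, i)) (Sum.inr (e, j)) ≠ 1 := by
    intro h
    rw [SimpleGraph.dist_eq_one_iff_adj] at h
    obtain ⟨e', i', h⟩ := adj_succ_iff k _ _ h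
    rcases h with ⟨h1, h2⟩ | ⟨h1, h2⟩ | ⟨h1, h2⟩ | ⟨h1, h2⟩ <;> simp at h1 h2
  omega

section Norm

variable {X : Type} [NormedAddCommGroup X] [NormedSpace ℝ X] [CompleteSpace X]

/-- The quantitative asymptotic midpoint inequality. -/
def PropA (X : Type) [NormedAddCommGroup X] [NormedSpace ℝ X] [CompleteSpace X] : Prop :=
  ∀ (x : X) (η R : ℝ), 0 < η → 0 < R → ∃ F : Set X, (RB X).IsCof F ∧ ∀ y ∈ F, ‖y‖ ≤ R →
    ‖x‖ ^ 2 + ‖y‖ ^ 2 / 4 - η ≤ (‖x + y‖ ^ 2 + ‖x - y‖ ^ 2) / 2

theorem exists_pair_close (F : Set X) (hF : (RB X).IsCof F) (z : ℕ → X) (B : ℝ)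
    (hz : ∀ n, ‖z n‖ ≤ B) (ε : ℝ) (hε : 0 < ε) :
    ∃ i j : ℕ, i ≠ j ∧ ∃ w ∈ F, ‖z i - z j - w‖ < ε := by
  obtain ⟨S, hSF, hcl, hfd⟩ := hF
  have hcl' : IsClosed (S : Set X) := by rw [hSF]; exact hcl
  have : IsClosed (S : Set X) := hcl'
  have : FiniteDimensional ℝ (X ⧸ S) := hfd
  have : ProperSpace (X ⧸ S) := FiniteDimensional.proper ℝ _
  let π : X →L[ℝ] (X ⧸ S) := S.mkQL
  have hb : ∀ n, π (z n) ∈ Metric.closedBall (0 : X ⧸ S) (‖π‖ * B) := by
    intro n
    rw [Metric.mem_closedBall, dist_zero_right]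
    exact (π.le_opNorm _).trans (by gcongr; exact hz n)
  obtain ⟨a, -, φ, hφ, hlim⟩ := tendsto_subseq_of_bounded Metric.isBounded_closedBall hb
  have hev := Metric.tendsto_atTop.mp hlim (ε / 2) (by positivity)
  obtain ⟨N, hN⟩ := hev
  have h1 := hN N le_rfl
  have h2 := hN (N + 1) (Nat.le_succ N)
  have h3 : ‖π (z (φ N) - z (φ (N + 1)))‖ < ε := by
    rw [map_sub, ← dist_eq_norm]
    calc dist (π (z (φ N))) (π (z (φ (N + 1)))) ≤
        dist (π (z (φ N))) a + dist (π (z (φ (N + 1)))) a := dist_triangle_right _ _ _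
      _ < ε / 2 + ε / 2 := add_lt_add h1 h2
      _ = ε := by ring
  obtain ⟨m, hm1, hm2⟩ := Submodule.Quotient.norm_mk_lt (π (z (φ N) - z (φ (N + 1))))
    (ε := ε - ‖π (z (φ N) - z (φ (N + 1)))‖) (by linarith)
  refine ⟨φ N, φ (N + 1), (hφ (Nat.lt_succ_self N)).ne, z (φ N) - z (φ (N + 1)) - m, ?_, ?_⟩
  · rw [← hSF]
    have : π (z (φ N) - z (φ (N + 1)) - m) = 0 := by
      rw [map_sub]
      have : π m = π (z (φ N) - z (φ (N + 1))) := hm1
      rw [this, sub_self]
    exact (Submodule.Quotient.mk_eq_zero S).mp this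
  · simpa using by linarith

theorem one_step (hA : PropA X) (a b : X) (v : ℕ → X) (L s : ℝ) (hs : 0 < s)
    (h1 : ∀ i, ‖v i - a‖ ≤ L) (h2 : ∀ i, ‖b - v i‖ ≤ L)
    (h3 : ∀ i j, i ≠ j → 2 * s ≤ ‖v i - v j‖) :
    ‖(1 / 2 : ℝ) • (b - a)‖ ^ 2 + s ^ 2 / 4 ≤ L ^ 2 := by
  have hL : 0 ≤ L := (norm_nonneg _).trans (h1 0)
  set x := (1 / 2 : ℝ) • (b - a) with hx
  -- approximate version
  have key : ∀ ε : ℝ, 0 < ε → ε < s → ‖x‖ ^ 2 + (s - ε) ^ 2 / 4 - ε ≤ (L + ε) ^ 2 := by
    intro ε hε hεs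
    obtain ⟨F, hF, hFA⟩ := hA x ε (2 * L + ε + 1) hε (by positivity)
    obtain ⟨i, j, hij, w, hwF, hw⟩ := exists_pair_close F hF (fun n => (1 / 2 : ℝ) • (v n - a)) L
      (fun n => by
        rw [norm_smul, Real.norm_eq_abs, abs_of_pos (by norm_num : (0:ℝ) < 1 / 2)]
        have := h1 n
        linarith) ε hε
    set y := (1 / 2 : ℝ) • (v i - v j) with hy
    have hyw : ‖y - w‖ < ε := by
      have : y - w = (1 / 2 : ℝ) • (v i - a) - (1 / 2 : ℝ) • (v j - a) - w := by
        rw [hy]; module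
      rw [this]; exact hw
    have hyn : s ≤ ‖y‖ := by
      rw [hy, norm_smul, Real.norm_eq_abs, abs_of_pos (by norm_num : (0:ℝ) < 1 / 2)]
      have := h3 i j hij
      linarith
    have hyn2 : ‖y‖ ≤ 2 * L := by
      rw [hy, norm_smul, Real.norm_eq_abs, abs_of_pos (by norm_num : (0:ℝ) < 1 / 2)]
      have e : v i - v j = (v i - a) - (v j - a) := by abel
      have := norm_sub_le (v i - a) (v j - a)
      rw [← e] at this
      linarith [h1 i, h1 j]
    have hwn : s - ε ≤ ‖w‖ := by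
      have : ‖y‖ ≤ ‖w‖ + ‖y - w‖ := by
        have e : y = w + (y - w) := by abel
        calc ‖y‖ = ‖w + (y - w)‖ := by rw [← e]
          _ ≤ _ := norm_add_le _ _
      linarith
    have hwn2 : ‖w‖ ≤ 2 * L + ε + 1 := by
      have : ‖w‖ ≤ ‖y‖ + ‖y - w‖ := by
        have e : w = y - (y - w) := by abel
        calc ‖w‖ = ‖y - (y - w)‖ := by rw [← e]
          _ ≤ _ := norm_sub_le _ _
      linarith
    have hxy1 : ‖x + y‖ ≤ L := by
      have e : x + y = (1 / 2 : ℝ) • (v i - a) + (1 / 2 : ℝ) • (b - v j) := by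
        rw [hx, hy]; module
      rw [e]
      refine (norm_add_le _ _).trans ?_
      rw [norm_smul, norm_smul, Real.norm_eq_abs, abs_of_pos (by norm_num : (0:ℝ) < 1 / 2)]
      linarith [h1 i, h2 j]
    have hxy2 : ‖x - y‖ ≤ L := by
      have e : x - y = (1 / 2 : ℝ) • (v j - a) + (1 / 2 : ℝ) • (b - v i) := by
        rw [hx, hy]; module
      rw [e]
      refine (norm_add_le _ _).trans ?_
      rw [norm_smul, norm_smul, Real.norm_eq_abs, abs_of_pos (by norm_num : (0:ℝ) < 1 / 2)]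
      linarith [h1 j, h2 i]
    have hxw1 : ‖x + w‖ ≤ L + ε := by
      have e : x + w = (x + y) - (y - w) := by abel
      rw [e]
      exact (norm_sub_le _ _).trans (by linarith)
    have hxw2 : ‖x - w‖ ≤ L + ε := by
      have e : x - w = (x - y) + (y - w) := by abel
      rw [e]
      exact (norm_add_le _ _).trans (by linarith)
    have h4 := hFA w hwF hwn2
    have h5 : ‖x + w‖ ^ 2 ≤ (L + ε) ^ 2 := by gcongr
    have h6 : ‖x - w‖ ^ 2 ≤ (L + ε) ^ 2 := by gcongr
    have h7 : (s - ε) ^ 2 ≤ ‖w‖ ^ 2 := by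
      have : 0 ≤ s - ε := by linarith
      gcongr
    linarith
  -- limit
  have ht0 : Tendsto (fun n : ℕ => (1 / ((n:ℝ) + 1))) atTop (𝓝 0) :=
    tendsto_one_div_add_atTop_nhds_zero_nat
  have hl1 : Tendsto (fun n : ℕ => ‖x‖ ^ 2 + (s - (1 / ((n:ℝ) + 1))) ^ 2 / 4 - (1 / ((n:ℝ) + 1)))
      atTop (𝓝 (‖x‖ ^ 2 + (s - 0) ^ 2 / 4 - 0)) := by
    exact ((((tendsto_const_nhds.sub ht0).pow 2).div_const 4).const_add _).sub ht0
  have hl2 : Tendsto (fun n : ℕ => (L + (1 / ((n:ℝ) + 1))) ^ 2) atTop (𝓝 ((L + 0) ^ 2)) :=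
    (ht0.const_add L).pow 2
  have := le_of_tendsto_of_tendsto hl1 hl2 (by
    filter_upwards [(tendsto_order.mp ht0).2 s hs] with n hn
    exact key _ (by positivity) hn)
  simpa using this

theorem diamond_bound (hA : PropA X) : ∀ (k : ℕ) (f : DiamondVertex k → X) (s L : ℝ), 0 < s →
    0 ≤ L →
    (∀ u v, s * (diamondDist k u v : ℝ) ≤ ‖f u - f v‖) →
    (∀ e : DiamondEdge k, ‖f (diamondSrc k e) - f (diamondTgt k e)‖ ≤ L) →
    s ^ 2 * (1 + (k : ℝ) / 4) ≤ L ^ 2 := by
  intro k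
  induction k with
  | zero =>
    intro f s L hs hL h1 h2
    have h3 := h1 false true
    have h4 : diamondDist 0 false true = 1 :=
      SimpleGraph.dist_eq_one_iff_adj.mpr (adj_src_tgt 0 ())
    rw [h4] at h3
    have h5 := h2 ()
    have h6 : s ≤ L := by
      have : ‖f false - f true‖ ≤ L := h5
      simp only [Nat.cast_one, mul_one] at h3
      linarith
    simp only [Nat.cast_zero, zero_div, add_zero, mul_one]
    gcongr
  | succ k ih =>
    intro f s L hs hL h1 h2
    -- edges of D k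
    have hstep : ∀ e : DiamondEdge k,
        ‖f (Sum.inl (diamondSrc k e)) - f (Sum.inl (diamondTgt k e))‖ ^ 2 ≤
          4 * (L ^ 2 - s ^ 2 / 4) := by
      intro e
      have h3 := one_step hA (f (Sum.inl (diamondSrc k e))) (f (Sum.inl (diamondTgt k e)))
        (fun i => f (Sum.inr (e, i))) L s hs
        (fun i => by
          have := h2 (e, i, false)
          rw [norm_sub_rev]
          exact this)
        (fun i => by
          have := h2 (e, i, true)
          rw [norm_sub_rev]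
          exact this)
        (fun i j hij => by
          have h4 := h1 (Sum.inr (e, i)) (Sum.inr (e, j))
          have h5 := dist_inr k e i j hij
          have h6 : (2:ℝ) ≤ (diamondDist (k + 1) (Sum.inr (e, i)) (Sum.inr (e, j)) : ℝ) := by
            exact_mod_cast h5
          calc 2 * s = s * 2 := by ring
            _ ≤ s * (diamondDist (k + 1) (Sum.inr (e, i)) (Sum.inr (e, j)) : ℝ) := by gcongr
            _ ≤ _ := h4)
      rw [norm_smul, Real.norm_eq_abs, abs_of_pos (by norm_num : (0:ℝ) < 1 / 2), mul_pow,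
        norm_sub_rev] at h3
      linarith
    have hnn : 0 ≤ 4 * (L ^ 2 - s ^ 2 / 4) := by
      obtain ⟨e⟩ : Nonempty (DiamondEdge k) := by
        clear * -
        induction k with
        | zero => exact ⟨()⟩
        | succ k ih => exact ⟨(ih.some, 0, false)⟩
      exact (sq_nonneg _).trans (hstep e)
    have h4 := ih (fun u => f (Sum.inl u)) (2 * s) (Real.sqrt (4 * (L ^ 2 - s ^ 2 / 4)))
      (by positivity) (Real.sqrt_nonneg _) (fun u v => by
        have h5 := h1 (Sum.inl u) (Sum.inl v)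
        have h6 := dist_inl k u v
        have h7 : (2:ℝ) * (diamondDist k u v : ℝ) ≤
            (diamondDist (k + 1) (Sum.inl u) (Sum.inl v) : ℝ) := by exact_mod_cast h6
        calc 2 * s * (diamondDist k u v : ℝ) = s * (2 * (diamondDist k u v : ℝ)) := by ring
          _ ≤ s * (diamondDist (k + 1) (Sum.inl u) (Sum.inl v) : ℝ) := by gcongr
          _ ≤ _ := h5) (fun e => Real.le_sqrt_of_sq_le (hstep e))
    rw [Real.sq_sqrt hnn] at h4
    push_cast
    nlinarith

theorem distortion_bound (hA : PropA X) (k : ℕ) (f : DiamondVertex k → X) (D : ℝ)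
    (h : (RB X).HasDistortionLE k f D) : 1 + (k : ℝ) / 4 ≤ D ^ 2 := by
  obtain ⟨s, hs, hf⟩ := h
  have h1 : ∀ u v, s * (diamondDist k u v : ℝ) ≤ ‖f u - f v‖ := fun u v => (hf u v).1
  have h2 : ∀ e : DiamondEdge k, ‖f (diamondSrc k e) - f (diamondTgt k e)‖ ≤ D * s := by
    intro e
    have h3 := (hf (diamondSrc k e) (diamondTgt k e)).2
    have h4 : diamondDist k (diamondSrc k e) (diamondTgt k e) = 1 :=
      SimpleGraph.dist_eq_one_iff_adj.mpr (adj_src_tgt k e)
    rw [h4] at h3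
    simpa using h3
  obtain ⟨e⟩ : Nonempty (DiamondEdge k) := by
    clear * -
    induction k with
    | zero => exact ⟨()⟩
    | succ k ih => exact ⟨(ih.some, 0, false)⟩
  have h5 := diamond_bound hA k f s (D * s) hs ((norm_nonneg _).trans (h2 e)) h1 h2
  have h6 : s ^ 2 * (1 + (k : ℝ) / 4) ≤ s ^ 2 * D ^ 2 := by
    calc _ ≤ _ := h5
      _ = s ^ 2 * D ^ 2 := by ring
  exact le_of_mul_le_mul_left h6 (by positivity)

end Norm

end Crest.Agent.H11
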