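import Mathlib

/-! Reflexivity of Hilbert spaces, transfer, and of `ℓ²`-sums. -/

namespace Crest.Agent.H11

open Filter Topology

/-- reflexivity as a predicate -/
def Refl (X : Type) [NormedAddCommGroup X] [NormedSpace ℝ X] : Prop :=
  Function.Surjective (NormedSpace.inclusionInDoubleDual ℝ X)

theorem refl_iff (X : Type) [NormedAddCommGroup X] [NormedSpace ℝ X] :
    Refl X ↔ ∀ Φ : StrongDual ℝ (StrongDual ℝ X), ∃ x : X, ∀ ψ : StrongDual ℝ X, Φ ψ = ψ x := by
  constructor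
  · intro h Φ
    obtain ⟨x, hx⟩ := h Φ
    exact ⟨x, fun ψ => by rw [← hx, NormedSpace.dual_def]⟩
  · intro h Φ
    obtain ⟨x, hx⟩ := h Φ
    exact ⟨x, by ext ψ; rw [NormedSpace.dual_def, hx]⟩

theorem refl_hilbert (H : Type) [NormedAddCommGroup H] [InnerProductSpace ℝ H] [CompleteSpace H] :
    Refl H := by
  rw [refl_iff]
  intro Φ
  let T : H →L[ℝ] ℝ := Φ.comp (innerSL ℝ)
  refine ⟨(InnerProductSpace.toDual ℝ H).symm T, fun ψ => ?_⟩
  obtain ⟨w, rfl⟩ := (InnerProductSpace.toDual ℝ H).surjective ψ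
  rw [InnerProductSpace.toDual_apply_apply, real_inner_comm, InnerProductSpace.toDual_symm_apply]
  rfl

theorem refl_equiv {X Y : Type} [NormedAddCommGroup X] [NormedSpace ℝ X]
    [NormedAddCommGroup Y] [NormedSpace ℝ Y] (e : X ≃L[ℝ] Y) (h : Refl X) : Refl Y := by
  rw [refl_iff] at h ⊢
  intro Φ
  let T : StrongDual ℝ X →L[ℝ] StrongDual ℝ Y :=
    ContinuousLinearMap.precomp ℝ (e.symm : Y →L[ℝ] X)
  obtain ⟨x, hx⟩ := h (Φ.comp T)
  refine ⟨e x, fun ψ => ?_⟩
  have h1 := hx (ψ.comp (e : X →L[ℝ] Y))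
  have h2 : T (ψ.comp (e : X →L[ℝ] Y)) = ψ := by
    ext y; simp [T]
  rw [ContinuousLinearMap.comp_apply, h2] at h1
  rw [h1]; rfl

section Sum

variable {ι : Type} {E : ι → Type} [∀ i, NormedAddCommGroup (E i)] [∀ i, NormedSpace ℝ (E i)]

theorem lp_two_hasSum (x : lp E 2) : HasSum (fun i => ‖x i‖ ^ 2) (‖x‖ ^ 2) := by
  have h := lp.hasSum_norm (p := 2) (by norm_num) x
  simpa using h

theorem lp_two_sum_le (x : lp E 2) (A : Finset ι) : ∑ i ∈ A, ‖x i‖ ^ 2 ≤ ‖x‖ ^ 2 :=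
  sum_le_hasSum A (fun _ _ => sq_nonneg _) (lp_two_hasSum x)

theorem cs_bound (A : Finset ι) (c : ι → ℝ) (u : lp E 2) :
    ∑ i ∈ A, c i * ‖u i‖ ≤ Real.sqrt (∑ i ∈ A, c i ^ 2) * ‖u‖ := by
  have h1 := Real.sum_mul_le_sqrt_mul_sqrt A c (fun i => ‖u i‖)
  refine h1.trans ?_
  gcongr
  rw [Real.sqrt_le_left (norm_nonneg _)]
  exact lp_two_sum_le u A

variable [DecidableEq ι]

/-- inclusion of a factor -/
noncomputable abbrev inc (i : ι) : E i →L[ℝ] lp E 2 := lp.singleContinuousLinearMap ℝ E 2 i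

/-- projection to a factor -/
noncomputable abbrev prj (i : ι) : lp E 2 →L[ℝ] E i := lp.evalCLM ℝ E 2 i

theorem prj_apply (i : ι) (x : lp E 2) : prj i x = x i := rfl

theorem refl_sum (h : ∀ i, Refl (E i)) : Refl (lp E 2) := by
  rw [refl_iff]
  intro Φ
  let T : ∀ i, StrongDual ℝ (E i) →L[ℝ] StrongDual ℝ (lp E 2) := fun i =>
    ContinuousLinearMap.precomp ℝ (prj (E := E) i)
  have hT : ∀ i (φ : StrongDual ℝ (E i)) (u : lp E 2), T i φ u = φ (u i) := fun i φ u => rfl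
  choose x hx using fun i => (refl_iff _).mp (h i) (Φ.comp (T i))
  have hx' : ∀ i (φ : StrongDual ℝ (E i)), Φ (T i φ) = φ (x i) := hx
  -- square summability
  have hsq : ∀ A : Finset ι, ∑ i ∈ A, ‖x i‖ ^ 2 ≤ ‖Φ‖ ^ 2 := by
    intro A
    choose φ hφ1 hφ2 using fun i => exists_dual_vector'' ℝ (x i)
    set ψ : StrongDual ℝ (lp E 2) := ∑ i ∈ A, ‖x i‖ • T i (φ i) with hψ
    set s := ∑ i ∈ A, ‖x i‖ ^ 2 with hs
    have hs0 : 0 ≤ s := Finset.sum_nonneg fun _ _ => sq_nonneg _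
    have h1 : Φ ψ = s := by
      rw [hψ, map_sum, hs]
      refine Finset.sum_congr rfl fun i _ => ?_
      rw [map_smul, hx', hφ2, smul_eq_mul, sq]; rfl
    have h2 : ‖ψ‖ ≤ Real.sqrt s := by
      refine ContinuousLinearMap.opNorm_le_bound _ (Real.sqrt_nonneg _) fun u => ?_
      rw [hψ, sum_apply, Real.norm_eq_abs]
      refine (Finset.abs_sum_le_sum_abs _ _).trans ?_
      refine le_trans (Finset.sum_le_sum fun i _ => ?_) (cs_bound A (fun i => ‖x i‖) u)
      rw [smul_apply, hT, smul_eq_mul, abs_mul, abs_norm]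
      refine mul_le_mul_of_nonneg_left ?_ (norm_nonneg _)
      have := (φ i).le_opNorm (u i)
      exact this.trans (mul_le_of_le_one_left (norm_nonneg _) (hφ1 i))
    have h3 : s ≤ ‖Φ‖ * Real.sqrt s := by
      calc s = Φ ψ := h1.symm
        _ ≤ ‖Φ ψ‖ := le_abs_self _
        _ ≤ ‖Φ‖ * ‖ψ‖ := Φ.le_opNorm _
        _ ≤ ‖Φ‖ * Real.sqrt s := by gcongr
    rcases hs0.eq_or_lt with h0 | h0
    · rw [← h0]; positivity
    · have hsq : 0 < Real.sqrt s := Real.sqrt_pos.mpr h0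
      have h4 : Real.sqrt s * Real.sqrt s ≤ ‖Φ‖ * Real.sqrt s := by
        rw [Real.mul_self_sqrt hs0]; exact h3
      have h5 : Real.sqrt s ≤ ‖Φ‖ := le_of_mul_le_mul_right h4 hsq
      calc s = Real.sqrt s ^ 2 := (Real.sq_sqrt hs0).symm
        _ ≤ ‖Φ‖ ^ 2 := by gcongr
  have hmem : Memℓp x 2 := by
    refine memℓp_gen' (C := ‖Φ‖ ^ 2) fun A => ?_
    simpa using hsq A
  set X : lp E 2 := ⟨x, hmem⟩ with hX
  refine ⟨X, fun ψ => ?_⟩
  -- component norms of ψ
  set c : ι → ℝ := fun i => ‖ψ.comp (inc (E := E) i)‖ with hc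
  have hc1 : ∀ A : Finset ι, ∑ i ∈ A, c i ^ 2 ≤ (2 * ‖ψ‖) ^ 2 := by
    intro A
    -- near-norming vectors
    have h1 : ∀ i, ∃ u : E i, ‖u‖ ≤ 1 ∧ c i / 2 ≤ ψ (inc i u) := by
      intro i
      by_cases h0 : c i = 0
      · exact ⟨0, by simp, by rw [h0]; simp⟩
      · have hpos : 0 < c i := lt_of_le_of_ne (norm_nonneg _) (Ne.symm h0)
        obtain ⟨u, hu⟩ : ∃ u : E i, c i / 2 * ‖u‖ < ‖ψ (inc i u)‖ := by
          by_contra hcon
          push Not at hcon
          have := ContinuousLinearMap.opNorm_le_bound (ψ.comp (inc (E := E) i))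
            (by positivity : 0 ≤ c i / 2) hcon
          have : c i ≤ c i / 2 := this
          linarith
        have hupos : 0 < ‖u‖ := by
          rw [norm_pos_iff]; rintro rfl
          simp at hu
        have key : ∀ w : E i, ‖w‖ = ‖u‖ → ψ (inc i w) = ‖ψ (inc i u)‖ →
            ∃ u : E i, ‖u‖ ≤ 1 ∧ c i / 2 ≤ ψ (inc i u) := by
          intro w hw1 hw2
          refine ⟨‖u‖⁻¹ • w, ?_, ?_⟩
          · rw [norm_smul, norm_inv, norm_norm, hw1, inv_mul_cancel₀ hupos.ne']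
          · rw [map_smul, map_smul, hw2, smul_eq_mul, inv_mul_eq_div, le_div_iff₀ hupos]
            exact hu.le
        rcases abs_cases (ψ (inc i u)) with ⟨h2, -⟩ | ⟨h2, -⟩
        · exact key u rfl h2.symm
        · exact key (-u) (norm_neg _) (by rw [map_neg, map_neg]; exact h2.symm)
    choose u hu1 hu2 using h1
    set s := ∑ i ∈ A, c i ^ 2 with hs
    have hs0 : 0 ≤ s := Finset.sum_nonneg fun _ _ => sq_nonneg _
    set w : lp E 2 := ∑ i ∈ A, c i • inc i (u i) with hw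
    have hwn : ‖w‖ ≤ Real.sqrt s := by
      refine Real.le_sqrt_of_sq_le ?_
      have h3 : w = ∑ i ∈ A, lp.single 2 i (c i • u i) := by
        rw [hw]
        refine Finset.sum_congr rfl fun i _ => ?_
        rw [← map_smul]; rfl
      have h4 := lp.norm_sum_single (E := E) (p := 2) (by norm_num) (fun i => c i • u i) A
      rw [← h3] at h4
      have h5 : ‖w‖ ^ 2 = ∑ i ∈ A, ‖c i • u i‖ ^ 2 := by simpa using h4
      rw [h5, hs]
      refine Finset.sum_le_sum fun i _ => ?_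
      rw [norm_smul, mul_pow, Real.norm_eq_abs, sq_abs]
      exact mul_le_of_le_one_right (sq_nonneg _) (pow_le_one₀ (norm_nonneg _) (hu1 i))
    have h6 : s / 2 ≤ ‖ψ‖ * Real.sqrt s := by
      calc s / 2 = ∑ i ∈ A, c i * (c i / 2) := by
            rw [hs, Finset.sum_div]
            exact Finset.sum_congr rfl fun i _ => by ring
        _ ≤ ∑ i ∈ A, c i * ψ (inc i (u i)) := by
            refine Finset.sum_le_sum fun i _ => ?_
            exact mul_le_mul_of_nonneg_left (hu2 i) (norm_nonneg _)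
        _ = ψ w := by
            rw [hw, map_sum]
            exact Finset.sum_congr rfl fun i _ => by rw [map_smul, smul_eq_mul]
        _ ≤ ‖ψ w‖ := le_abs_self _
        _ ≤ ‖ψ‖ * ‖w‖ := ψ.le_opNorm _
        _ ≤ ‖ψ‖ * Real.sqrt s := by gcongr
    rcases hs0.eq_or_lt with h0 | h0
    · rw [← h0]; positivity
    · have hsq : 0 < Real.sqrt s := Real.sqrt_pos.mpr h0
      have h4 : Real.sqrt s * Real.sqrt s ≤ (2 * ‖ψ‖) * Real.sqrt s := by
        rw [Real.mul_self_sqrt hs0]; linarith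
      have h5 : Real.sqrt s ≤ 2 * ‖ψ‖ := le_of_mul_le_mul_right h4 hsq
      calc s = Real.sqrt s ^ 2 := (Real.sq_sqrt hs0).symm
        _ ≤ (2 * ‖ψ‖) ^ 2 := by gcongr
  have hcsum : Summable (fun i => c i ^ 2) := summable_of_sum_le (fun i => sq_nonneg _) hc1
  have hψA : ∀ ε : ℝ, 0 < ε → ∃ A : Finset ι, ‖ψ - ∑ i ∈ A, T i (ψ.comp (inc i))‖ ≤ ε := by
    intro ε hε
    obtain ⟨A, hA⟩ := (summable_iff_vanishing_norm.mp hcsum) (ε ^ 2) (by positivity)
    refine ⟨A, ContinuousLinearMap.opNorm_le_bound _ hε.le fun u => ?_⟩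
    -- evaluate along finite approximations
    have h1 : HasSum (fun i => ψ (inc i (u i))) (ψ u) := by
      have := (lp.hasSum_single (p := 2) (by norm_num) u).mapL ψ
      exact this
    have h2 : (ψ - ∑ i ∈ A, T i (ψ.comp (inc i))) u = ψ u - ∑ i ∈ A, ψ (inc i (u i)) := by
      rw [sub_apply, sum_apply]
      rfl
    rw [h2]
    have h3 : Tendsto (fun B : Finset ι => ∑ i ∈ B, ψ (inc i (u i)) - ∑ i ∈ A, ψ (inc i (u i)))
        atTop (𝓝 (ψ u - ∑ i ∈ A, ψ (inc i (u i)))) := Tendsto.sub_const h1 _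
    refine le_of_tendsto h3.norm ?_
    filter_upwards [eventually_ge_atTop A] with B hB
    rw [← Finset.sum_sdiff hB, add_sub_cancel_right, Real.norm_eq_abs]
    refine (Finset.abs_sum_le_sum_abs _ _).trans ?_
    refine le_trans (Finset.sum_le_sum fun i _ => ?_) ((cs_bound (B \ A) c u).trans ?_)
    · exact (ψ.comp (inc (E := E) i)).le_opNorm (u i)
    · refine mul_le_mul_of_nonneg_right ?_ (norm_nonneg _)
      rw [Real.sqrt_le_left hε.le]
      have := hA (B \ A) Finset.sdiff_disjoint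
      rw [Real.norm_eq_abs, abs_of_nonneg (Finset.sum_nonneg fun _ _ => sq_nonneg _)] at this
      exact this.le
  -- conclude
  have hfin : ∀ ε : ℝ, 0 < ε → |Φ ψ - ψ X| ≤ ε * (‖Φ‖ + ‖X‖) := by
    intro ε hε
    obtain ⟨A, hA⟩ := hψA ε hε
    set ψA := ∑ i ∈ A, T i (ψ.comp (inc i)) with hψAdef
    have h1 : Φ ψA = ψA X := by
      rw [hψAdef, map_sum, sum_apply]
      refine Finset.sum_congr rfl fun i _ => ?_
      rw [hx', hT]
    have h2 : Φ ψ - ψ X = Φ (ψ - ψA) - (ψ - ψA) X := by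
      rw [map_sub, sub_apply, h1]; ring
    rw [h2]
    calc |Φ (ψ - ψA) - (ψ - ψA) X| ≤ |Φ (ψ - ψA)| + |(ψ - ψA) X| := abs_sub _ _
      _ ≤ ‖Φ‖ * ‖ψ - ψA‖ + ‖ψ - ψA‖ * ‖X‖ := add_le_add (Φ.le_opNorm _) ((ψ - ψA).le_opNorm _)
      _ ≤ ‖Φ‖ * ε + ε * ‖X‖ := by gcongr
      _ = ε * (‖Φ‖ + ‖X‖) := by ring
  have h0 : |Φ ψ - ψ X| ≤ 0 := by
    have ht : Tendsto (fun n : ℕ => (1 / ((n:ℝ) + 1)) * (‖Φ‖ + ‖X‖)) atTop (𝓝 (0 * (‖Φ‖ + ‖X‖))) :=
      tendsto_one_div_add_atTop_nhds_zero_nat.mul_const _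
    rw [zero_mul] at ht
    exact ge_of_tendsto ht (Eventually.of_forall fun n => hfin _ (by positivity))
  have := abs_nonpos_iff.mp h0
  linarith

theorem separable_sum [Countable ι] [∀ i, TopologicalSpace.SeparableSpace (E i)] :
    TopologicalSpace.SeparableSpace (lp E 2) := by
  have h1 : TopologicalSpace.IsSeparable (⋃ i, Set.range (inc (E := E) i)) := by
    refine TopologicalSpace.IsSeparable.iUnion fun i => ?_
    exact TopologicalSpace.isSeparable_range (inc (E := E) i).continuous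
  have h2 : TopologicalSpace.IsSeparable (closure
    (Submodule.span ℝ (⋃ i, Set.range (inc (E := E) i)) : Set (lp E 2))) := h1.span.closure
  have h3 : closure (Submodule.span ℝ (⋃ i, Set.range (inc (E := E) i)) : Set (lp E 2)) =
      Set.univ := by
    rw [Set.eq_univ_iff_forall]
    intro x
    refine mem_closure_of_tendsto (lp.hasSum_single (p := 2) (by norm_num) x)
      (Eventually.of_forall fun A => ?_)
    refine Submodule.sum_mem _ fun i _ => Submodule.subset_span ?_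
    exact Set.mem_iUnion.mpr ⟨i, ⟨x i, rfl⟩⟩
  rw [h3] at h2
  exact TopologicalSpace.isSeparable_univ_iff.mp h2

end Sum

end Crest.Agent.H11
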