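import Mathlib
import Crest.Agent.H11.Core

/-! Sequences with an upper 2-estimate come close to every closed finite-codimensional subspace. -/

namespace Crest.Agent.H11

open Crest.AnalysisR

variable {X : Type} [NormedAddCommGroup X] [NormedSpace ℝ X] [CompleteSpace X]

/-- weak null along functionals gives closeness to finite codimensional subspaces -/
theorem exists_close_of_weak (d : ℕ → X)
    (hd : ∀ φ : X →L[ℝ] ℝ, Filter.Tendsto (fun n => φ (d n)) Filter.atTop (nhds 0))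
    (F : Set X) (hF : (RB X).IsCof F) (ε : ℝ) (hε : 0 < ε) :
    ∃ n, ∃ y ∈ F, ‖d n - y‖ < ε := by
  obtain ⟨S, hSF, hcl, hfd⟩ := hF
  have hcl' : IsClosed (S : Set X) := by rw [hSF]; exact hcl
  have : IsClosed (S : Set X) := hcl'
  have : FiniteDimensional ℝ (X ⧸ S) := hfd
  -- quotient map
  let π : X →L[ℝ] (X ⧸ S) := S.mkQL
  have hπ : Filter.Tendsto (fun n => π (d n)) Filter.atTop (nhds 0) := by
    let e : (X ⧸ S) ≃L[ℝ] (Fin (Module.finrank ℝ (X ⧸ S)) → ℝ) :=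
      (Module.finBasis ℝ (X ⧸ S)).equivFun.toContinuousLinearEquiv
    have h1 : Filter.Tendsto (fun n => e (π (d n))) Filter.atTop (nhds 0) := by
      rw [tendsto_pi_nhds]
      intro i
      exact hd ((ContinuousLinearMap.proj i : _ →L[ℝ] ℝ).comp (e.toContinuousLinearMap.comp π))
    have h2 := (e.symm.continuous.tendsto 0).comp h1
    have h3 : (⇑e.symm ∘ fun n => e (π (d n))) = fun n => π (d n) := by
      funext n; simp
    rw [h3] at h2
    simpa using h2
  have h4 := hπ.norm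
  rw [norm_zero] at h4
  obtain ⟨n, hn⟩ := ((tendsto_order.mp h4).2 ε hε).exists
  refine ⟨n, ?_⟩
  obtain ⟨m, hm1, hm2⟩ := Submodule.Quotient.norm_mk_lt (π (d n)) (ε := ε - ‖π (d n)‖) (by linarith)
  refine ⟨d n - m, ?_, ?_⟩
  · rw [← hSF]
    have : π (d n - m) = 0 := by
      rw [map_sub]
      have : π m = π (d n) := hm1
      rw [this, sub_self]
    exact (Submodule.Quotient.mk_eq_zero S).mp this
  · simpa using by linarith

theorem weak_of_upper_two (d : ℕ → X) (C : ℝ)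
    (h : ∀ (A : Finset ℕ) (a : ℕ → ℝ), ‖∑ n ∈ A, a n • d n‖ ≤ C * Real.sqrt (∑ n ∈ A, a n ^ 2))
    (φ : X →L[ℝ] ℝ) : Filter.Tendsto (fun n => φ (d n)) Filter.atTop (nhds 0) := by
  have key : ∀ A : Finset ℕ, ∑ n ∈ A, φ (d n) ^ 2 ≤ (‖φ‖ * C) ^ 2 := by
    intro A
    set s := ∑ n ∈ A, φ (d n) ^ 2 with hs
    have hs0 : 0 ≤ s := Finset.sum_nonneg fun _ _ => sq_nonneg _
    have h1 : s = φ (∑ n ∈ A, φ (d n) • d n) := by
      rw [map_sum, hs]
      refine Finset.sum_congr rfl fun n _ => ?_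
      rw [map_smul, smul_eq_mul, sq]
    have h2 : s ≤ ‖φ‖ * (C * Real.sqrt s) := by
      calc s = φ (∑ n ∈ A, φ (d n) • d n) := h1
        _ ≤ ‖φ (∑ n ∈ A, φ (d n) • d n)‖ := le_abs_self _
        _ ≤ ‖φ‖ * ‖∑ n ∈ A, φ (d n) • d n‖ := φ.le_opNorm _
        _ ≤ ‖φ‖ * (C * Real.sqrt s) := by
          gcongr
          exact h A _
    rcases hs0.eq_or_lt with h0 | h0
    · rw [← h0]; positivity
    · have hsq : 0 < Real.sqrt s := Real.sqrt_pos.mpr h0
      have h3 : Real.sqrt s * Real.sqrt s ≤ (‖φ‖ * C) * Real.sqrt s := by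
        rw [Real.mul_self_sqrt hs0]; linarith
      have h4 : Real.sqrt s ≤ ‖φ‖ * C := le_of_mul_le_mul_right h3 hsq
      calc s = Real.sqrt s ^ 2 := (Real.sq_sqrt hs0).symm
        _ ≤ (‖φ‖ * C) ^ 2 := by gcongr
  have hsum : Summable (fun n => φ (d n) ^ 2) :=
    summable_of_sum_le (fun n => sq_nonneg _) key
  have h0 := hsum.tendsto_atTop_zero
  have h1 : Filter.Tendsto (fun n => Real.sqrt (φ (d n) ^ 2)) Filter.atTop (nhds 0) := by
    have h5 := (Real.continuous_sqrt.tendsto 0).comp h0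
    rw [Real.sqrt_zero] at h5
    exact h5
  rw [tendsto_zero_iff_abs_tendsto_zero]
  refine h1.congr fun n => ?_
  simp [Real.sqrt_sq_eq_abs, Function.comp]

theorem exists_close_of_upper_two (d : ℕ → X) (C : ℝ)
    (h : ∀ (A : Finset ℕ) (a : ℕ → ℝ), ‖∑ n ∈ A, a n • d n‖ ≤ C * Real.sqrt (∑ n ∈ A, a n ^ 2))
    (F : Set X) (hF : (RB X).IsCof F) (ε : ℝ) (hε : 0 < ε) :
    ∃ n, ∃ y ∈ F, ‖d n - y‖ < ε :=
  exists_close_of_weak d (weak_of_upper_two d C h) F hF ε hε

end Crest.Agent.H11
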