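import Mathlib
import Crest.Prelude.Def_TreePotentials
import Crest.Agent.H11.Weak

/-! Asymptotic midpoint inequality for the tree potential spaces. -/

namespace Crest.Agent.H11

open Crest.AnalysisR Crest.AnalysisR.TreePotential

/-- gradient of a potential -/
def grad (P : List ℕ → ℝ) : List ℕ → ℝ
  | [] => P []
  | a :: v => P (a :: v) - P v

theorem pot_grad (P : List ℕ → ℝ) (s : List ℕ) : pathPotential (grad P) s = P s := by
  induction s with
  | nil => rfl
  | cons a v ih => simp only [pathPotential, grad, ih]; ring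

theorem extra_of_le (m : PotentialModel) {f g h : List ℕ → ℝ} {α β : ℝ}
    (hf : ExtraCondition m f) (hg : ExtraCondition m g) (hαβ : α ^ 2 + β ^ 2 ≤ 1)
    (hh : ∀ s, h s ^ 2 ≤ α ^ 2 * f s ^ 2 + β ^ 2 * g s ^ 2) : ExtraCondition m h := by
  have key : ∀ {ι : Type} (A : Finset ι) (v : ι → List ℕ), ∑ n ∈ A, f (v n) ^ 2 ≤ 1 →
      ∑ n ∈ A, g (v n) ^ 2 ≤ 1 → ∑ n ∈ A, h (v n) ^ 2 ≤ 1 := by
    intro ι A v h1 h2
    calc ∑ n ∈ A, h (v n) ^ 2 ≤ ∑ n ∈ A, (α ^ 2 * f (v n) ^ 2 + β ^ 2 * g (v n) ^ 2) :=
          Finset.sum_le_sum fun n _ => hh (v n)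
      _ = α ^ 2 * ∑ n ∈ A, f (v n) ^ 2 + β ^ 2 * ∑ n ∈ A, g (v n) ^ 2 := by
          rw [Finset.sum_add_distrib, Finset.mul_sum, Finset.mul_sum]
      _ ≤ α ^ 2 * 1 + β ^ 2 * 1 := by gcongr
      _ ≤ 1 := by linarith
  have hzero : ∀ s, f s = 0 → g s = 0 → h s = 0 := by
    intro s h1 h2
    have := hh s
    rw [h1, h2] at this
    have h3 : h s ^ 2 = 0 := le_antisymm (by simpa using this) (sq_nonneg _)
    exact pow_eq_zero_iff (two_ne_zero) |>.mp h3
  cases m with
  | rootlessSibling =>
    exact ⟨hzero _ hf.1 hg.1, fun r A => key A (fun n => n :: r) (hf.2 r A) (hg.2 r A)⟩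
  | rootedSibling => exact fun r A => key A (fun n => n :: r) (hf r A) (hg r A)
  | antichain =>
    refine ⟨(hf.1.union hg.1).subset ?_, fun A hA => key A id (hf.2 A hA) (hg.2 A hA)⟩
    intro s hs
    by_contra hcon
    simp only [Set.mem_union, Function.mem_support, not_or, not_not] at hcon
    exact hs (hzero s hcon.1 hcon.2)
  | global => exact fun A => key A id (hf A) (hg A)

theorem extra_zero (m : PotentialModel) : ExtraCondition m (fun _ => 0) := by
  cases m with
  | rootlessSibling => exact ⟨rfl, fun r A => by simp⟩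
  | rootedSibling => exact fun r A => by simp
  | antichain => exact ⟨by simp, fun A _ => by simp⟩
  | global => exact fun A => by simp

theorem pot_zero (s : List ℕ) : pathPotential (fun _ => 0) s = 0 := by
  induction s with
  | nil => rfl
  | cons a v ih => simp [pathPotential, ih]

/-- the zero test -/
def zeroTest (m : PotentialModel) : PotentialTest m :=
  ⟨fun _ => 0, fun s => by rw [pot_zero]; simp, extra_zero m⟩

theorem pot_neg (f : List ℕ → ℝ) (s : List ℕ) :
    pathPotential (fun u => - f u) s = - pathPotential f s := by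
  induction s with
  | nil => rfl
  | cons a v ih => simp only [pathPotential, ih]; ring

/-- the negative of a test -/
def negTest {m : PotentialModel} (f : PotentialTest m) : PotentialTest m :=
  ⟨fun s => - f.1 s, fun s => by rw [pot_neg, abs_neg]; exact f.2.1 s,
    extra_of_le m (α := 1) (β := 0) f.2.2 f.2.2 (by norm_num) (fun s => by simp)⟩

/-- indicator of a vertex -/
def dl (s : List ℕ) : List ℕ → ℝ := fun u => if u = s then 1 else 0

theorem pot_dl (s u : List ℕ) : pathPotential (dl s) u = if s <:+ u then 1 else 0 := by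
  induction u with
  | nil =>
    simp only [pathPotential, dl, List.suffix_nil, eq_comm]
  | cons a v ih =>
    simp only [pathPotential, ih, dl, List.suffix_cons_iff]
    by_cases h1 : s = a :: v
    · have h2 : ¬ s <:+ v := by
        intro h
        have := h.length_le
        rw [h1] at this
        simp at this
      rw [h1] at h2
      simp [h1, h2]
    · have h1' : ¬ (a :: v = s) := fun h => h1 h.symm
      simp [h1, h1']

theorem isTest_dl (m : PotentialModel) (s : List ℕ) (hs : m = .rootlessSibling → s ≠ []) :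
    IsTest m (dl s) := by
  refine ⟨fun u => ?_, ?_⟩
  · rw [pot_dl]; split_ifs <;> simp
  · have key : ∀ A : Finset (List ℕ), ∑ u ∈ A, dl s u ^ 2 ≤ 1 := by
      intro A
      have : ∀ u ∈ A, dl s u ^ 2 = if u = s then 1 else 0 := by
        intro u _; simp only [dl]; split_ifs <;> simp
      rw [Finset.sum_congr rfl this, Finset.sum_ite_eq']
      split_ifs <;> simp
    have key2 : ∀ (r : List ℕ) (A : Finset ℕ), ∑ n ∈ A, dl s (n :: r) ^ 2 ≤ 1 := by
      intro r A
      have h1 := key (A.image (fun n => n :: r))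
      rwa [Finset.sum_image (by intro a _ b _ hab; simpa using hab)] at h1
    cases m with
    | rootlessSibling =>
      refine ⟨?_, key2⟩
      simp [dl, (hs rfl).symm]
    | rootedSibling => exact key2
    | antichain =>
      refine ⟨(Set.finite_singleton s).subset ?_, fun A _ => key A⟩
      intro u hu
      simp only [Function.mem_support, dl, ne_eq, ite_eq_right_iff, one_ne_zero, imp_false,
        not_not] at hu
      exact hu
    | global => exact key

theorem root_zero {f : List ℕ → ℝ} (hf : IsTest .rootlessSibling f) : f [] = 0 := hf.2.1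

theorem coordVector_apply (m : PotentialModel) (s : List ℕ) (f : PotentialTest m) :
    (coordVector m s : ∀ _ : PotentialTest m, ℝ) f = f.1 s := rfl

/-- ambient space -/
abbrev Amb (m : PotentialModel) : Type := lp (fun _ : PotentialTest m => ℝ) ⊤

/-- evaluation at a test -/
noncomputable def ev (m : PotentialModel) (f : PotentialTest m) : Amb m →L[ℝ] ℝ :=
  lp.evalCLM ℝ (fun _ : PotentialTest m => ℝ) ⊤ f

theorem ev_apply (m : PotentialModel) (f : PotentialTest m) (y : Amb m) :
    ev m f y = (y : ∀ _ : PotentialTest m, ℝ) f := rfl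

theorem abs_ev_le (m : PotentialModel) (f : PotentialTest m) (y : Amb m) : |ev m f y| ≤ ‖y‖ :=
  lp.norm_apply_le_norm ENNReal.top_ne_zero y f

theorem ev_coord (m : PotentialModel) (f : PotentialTest m) (s : List ℕ) :
    ev m f (coordVector m s) = f.1 s := rfl

open Classical in
/-- coordinate functional -/
noncomputable def coordFun (m : PotentialModel) (s : List ℕ) : Amb m →L[ℝ] ℝ :=
  if h : IsTest m (dl s) then ev m ⟨dl s, h⟩ else 0

theorem coordFun_ne (m : PotentialModel) {s u : List ℕ} (h : u ≠ s) :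
    coordFun m s (coordVector m u) = 0 := by
  unfold coordFun
  split_ifs
  · rw [ev_coord]; simp [dl, h]
  · simp

theorem test_mul_coordFun (m : PotentialModel) (s : List ℕ) (g : PotentialTest m) :
    g.1 s * coordFun m s (coordVector m s) = g.1 s := by
  unfold coordFun
  split_ifs with h
  · rw [ev_coord]; simp [dl]
  · have : m = .rootlessSibling ∧ s = [] := by
      by_contra hcon
      rw [not_and] at hcon
      exact h (isTest_dl m s hcon)
    obtain ⟨rfl, rfl⟩ := this
    rw [root_zero g.2]; simp

/-- vanishing on coordinates implies vanishing on the model space -/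
theorem eq_zero_of_coord (m : PotentialModel) (L : Amb m →L[ℝ] ℝ)
    (h : ∀ s, L (coordVector m s) = 0) (y : Amb m) (hy : y ∈ modelSpace m) : L y = 0 := by
  have hle : modelSpace m ≤ LinearMap.ker (L : Amb m →ₗ[ℝ] ℝ) := by
    refine Submodule.topologicalClosure_minimal _ ?_ ?_
    · rw [Submodule.span_le]
      rintro _ ⟨s, rfl⟩
      exact h s
    · exact isClosed_eq L.continuous continuous_const
  exact hle hy

theorem exists_norming (m : PotentialModel) (y : Amb m) (hy : y ∈ modelSpace m) (ε : ℝ)
    (hε : 0 < ε) : ∃ f : PotentialTest m, ‖y‖ - ε ≤ ev m f y := by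
  have : Nonempty (PotentialTest m) := ⟨zeroTest m⟩
  have h1 : ‖y‖ - ε < ⨆ f, ‖(y : ∀ _ : PotentialTest m, ℝ) f‖ := by
    rw [← lp.norm_eq_ciSup]; linarith
  obtain ⟨f, hf⟩ := exists_lt_of_lt_ciSup h1
  rcases abs_cases ((y : ∀ _ : PotentialTest m, ℝ) f) with ⟨h2, -⟩ | ⟨h2, -⟩
  · refine ⟨f, ?_⟩
    rw [ev_apply, ← h2]; exact hf.le
  · refine ⟨negTest f, ?_⟩
    have h3 : ev m (negTest f) y = - ev m f y := by
      have := eq_zero_of_coord m (ev m (negTest f) + ev m f) (fun s => by
        simp [ev_coord, negTest]) y hy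
      simp only [add_apply] at this
      linarith
    rw [h3, ev_apply, ← h2]; exact hf.le

section Construction

variable {m : PotentialModel} (S : Finset (List ℕ)) (hnil : [] ∈ S)
  (hS : ∀ a v, a :: v ∈ S → v ∈ S) (f g : PotentialTest m) (α β : ℝ)

/-- potential of the restriction of f to S -/
def potP : List ℕ → ℝ := pathPotential (fun s => if s ∈ S then f.1 s else 0)

/-- potential of half of the restriction of g to the complement of S -/
noncomputable def potQ : List ℕ → ℝ := pathPotential (fun s => if s ∈ S then 0 else g.1 s / 2)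

include hS in
theorem potP_mem (s : List ℕ) (hs : s ∈ S) : potP S f s = pathPotential f.1 s := by
  induction s with
  | nil => simp [potP, pathPotential, hs]
  | cons a v ih =>
    have := ih (hS a v hs)
    unfold potP at this ⊢
    simp only [pathPotential, this, hs, if_true]

include hnil hS in
theorem potP_eq (s : List ℕ) : ∃ r, potP S f s = pathPotential f.1 r := by
  induction s with
  | nil => exact ⟨[], potP_mem S hS f _ hnil⟩
  | cons a v ih =>
    by_cases hs : a :: v ∈ S
    · exact ⟨a :: v, potP_mem S hS f _ hs⟩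
    · obtain ⟨r, hr⟩ := ih
      refine ⟨r, ?_⟩
      unfold potP at hr ⊢
      simp [pathPotential, hr, hs]

theorem potP_not_mem (a : ℕ) (v : List ℕ) (hs : a :: v ∉ S) :
    potP S f (a :: v) = potP S f v := by
  unfold potP
  simp [pathPotential, hs]

include hS in
theorem potQ_mem (s : List ℕ) (hs : s ∈ S) : potQ S g s = 0 := by
  induction s with
  | nil => simp [potQ, pathPotential, hs]
  | cons a v ih =>
    have := ih (hS a v hs)
    unfold potQ at this ⊢
    simp only [pathPotential, this, hs, if_true, add_zero]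

theorem potQ_not_mem (a : ℕ) (v : List ℕ) (hs : a :: v ∉ S) :
    potQ S g (a :: v) = potQ S g v + g.1 (a :: v) / 2 := by
  unfold potQ
  simp [pathPotential, hs]

include hnil hS in
theorem potQ_eq (s : List ℕ) :
    ∃ r, potQ S g s = (pathPotential g.1 s - pathPotential g.1 r) / 2 := by
  induction s with
  | nil => exact ⟨[], by rw [potQ_mem S hS g _ hnil]; ring⟩
  | cons a v ih =>
    by_cases hs : a :: v ∈ S
    · exact ⟨a :: v, by rw [potQ_mem S hS g _ hs]; ring⟩
    · obtain ⟨r, hr⟩ := ih
      refine ⟨r, ?_⟩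
      rw [potQ_not_mem S g a v hs, hr]
      simp only [pathPotential]; ring

include hnil hS in
theorem abs_potP_le (s : List ℕ) : |potP S f s| ≤ 1 := by
  obtain ⟨r, hr⟩ := potP_eq S hnil hS f s
  rw [hr]; exact f.2.1 r

include hnil hS in
theorem abs_potQ_le (s : List ℕ) : |potQ S g s| ≤ 1 := by
  obtain ⟨r, hr⟩ := potQ_eq S hnil hS g s
  rw [hr, abs_div, abs_of_pos (by norm_num : (0:ℝ) < 2), div_le_one (by norm_num)]
  calc |pathPotential g.1 s - pathPotential g.1 r|
      ≤ |pathPotential g.1 s| + |pathPotential g.1 r| := abs_sub _ _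
    _ ≤ 1 + 1 := add_le_add (g.2.1 s) (g.2.1 r)
    _ = 2 := by norm_num

/-- truncated potentials -/
noncomputable def potQ1 (s : List ℕ) : ℝ :=
  if 0 ≤ potP S f s then 2 * min (potQ S g s) 0 else 2 * max (potQ S g s) 0

/-- truncated potentials -/
noncomputable def potQ2 (s : List ℕ) : ℝ :=
  if 0 ≤ potP S f s then 2 * max (potQ S g s) 0 else 2 * min (potQ S g s) 0

theorem potQ1_add (s : List ℕ) : potQ1 S f g s + potQ2 S f g s = 2 * potQ S g s := by
  unfold potQ1 potQ2
  have := min_add_max (potQ S g s) 0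
  split_ifs <;> linarith

theorem abs_two_min_sub (x y : ℝ) : |2 * min x 0 - 2 * min y 0| ≤ 2 * |x - y| := by
  rw [← mul_sub, abs_mul, abs_of_pos (by norm_num : (0:ℝ) < 2)]
  have := abs_min_sub_min_le_max x 0 y 0
  simp only [sub_self, abs_zero] at this
  rw [max_eq_left (abs_nonneg (x - y))] at this
  linarith

theorem abs_two_max_sub (x y : ℝ) : |2 * max x 0 - 2 * max y 0| ≤ 2 * |x - y| := by
  rw [← mul_sub, abs_mul, abs_of_pos (by norm_num : (0:ℝ) < 2)]
  have := abs_max_sub_max_le_max x 0 y 0
  simp only [sub_self, abs_zero] at this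
  rw [max_eq_left (abs_nonneg (x - y))] at this
  linarith

include hS in
theorem potQ1_mem (s : List ℕ) (hs : s ∈ S) : potQ1 S f g s = 0 := by
  unfold potQ1; rw [potQ_mem S hS g s hs]; simp

include hS in
theorem potQ2_mem (s : List ℕ) (hs : s ∈ S) : potQ2 S f g s = 0 := by
  unfold potQ2; rw [potQ_mem S hS g s hs]; simp

theorem potQ1_not_mem (a : ℕ) (v : List ℕ) (hs : a :: v ∉ S) :
    |potQ1 S f g (a :: v) - potQ1 S f g v| ≤ |g.1 (a :: v)| := by
  have h0 : 2 * |potQ S g (a :: v) - potQ S g v| = |g.1 (a :: v)| := by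
    rw [potQ_not_mem S g a v hs, add_sub_cancel_left, abs_div,
      abs_of_pos (by norm_num : (0:ℝ) < 2)]
    ring
  unfold potQ1
  rw [potP_not_mem S f a v hs, ← h0]
  split_ifs
  · exact abs_two_min_sub _ _
  · exact abs_two_max_sub _ _

theorem potQ2_not_mem (a : ℕ) (v : List ℕ) (hs : a :: v ∉ S) :
    |potQ2 S f g (a :: v) - potQ2 S f g v| ≤ |g.1 (a :: v)| := by
  have h0 : 2 * |potQ S g (a :: v) - potQ S g v| = |g.1 (a :: v)| := by
    rw [potQ_not_mem S g a v hs, add_sub_cancel_left, abs_div,
      abs_of_pos (by norm_num : (0:ℝ) < 2)]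
    ring
  unfold potQ2
  rw [potP_not_mem S f a v hs, ← h0]
  split_ifs
  · exact abs_two_max_sub _ _
  · exact abs_two_min_sub _ _

/-- the plus test as a function -/
noncomputable def hP : List ℕ → ℝ := grad (fun s => α * potP S f s + β * potQ1 S f g s)

/-- the minus test as a function -/
noncomputable def hM : List ℕ → ℝ := grad (fun s => α * potP S f s - β * potQ2 S f g s)

include hnil hS in
theorem hP_mem (s : List ℕ) (hs : s ∈ S) : hP S f g α β s = α * f.1 s := by
  unfold hP
  cases s with
  | nil =>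
    simp only [grad]
    rw [potQ1_mem S hS f g _ hs, potP_mem S hS f _ hs]; simp [pathPotential]
  | cons a v =>
    have hv := hS a v hs
    simp only [grad]
    rw [potQ1_mem S hS f g _ hs, potP_mem S hS f _ hs, potQ1_mem S hS f g _ hv,
      potP_mem S hS f _ hv]
    simp only [pathPotential]; ring

include hnil hS in
theorem hM_mem (s : List ℕ) (hs : s ∈ S) : hM S f g α β s = α * f.1 s := by
  unfold hM
  cases s with
  | nil =>
    simp only [grad]
    rw [potQ2_mem S hS f g _ hs, potP_mem S hS f _ hs]; simp [pathPotential]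
  | cons a v =>
    have hv := hS a v hs
    simp only [grad]
    rw [potQ2_mem S hS f g _ hs, potP_mem S hS f _ hs, potQ2_mem S hS f g _ hv,
      potP_mem S hS f _ hv]
    simp only [pathPotential]; ring

include hnil in
theorem hP_not_mem (hβ : 0 ≤ β) (s : List ℕ) (hs : s ∉ S) : |hP S f g α β s| ≤ β * |g.1 s| := by
  cases s with
  | nil => exact absurd hnil hs
  | cons a v =>
    unfold hP
    simp only [grad]
    rw [potP_not_mem S f a v hs]
    have : α * potP S f v + β * potQ1 S f g (a :: v) - (α * potP S f v + β * potQ1 S f g v) =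
      β * (potQ1 S f g (a :: v) - potQ1 S f g v) := by ring
    rw [this, abs_mul, abs_of_nonneg hβ]
    exact mul_le_mul_of_nonneg_left (potQ1_not_mem S f g a v hs) hβ

include hnil in
theorem hM_not_mem (hβ : 0 ≤ β) (s : List ℕ) (hs : s ∉ S) : |hM S f g α β s| ≤ β * |g.1 s| := by
  cases s with
  | nil => exact absurd hnil hs
  | cons a v =>
    unfold hM
    simp only [grad]
    rw [potP_not_mem S f a v hs]
    have : α * potP S f v - β * potQ2 S f g (a :: v) - (α * potP S f v - β * potQ2 S f g v) =
      -(β * (potQ2 S f g (a :: v) - potQ2 S f g v)) := by ring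
    rw [this, abs_neg, abs_mul, abs_of_nonneg hβ]
    exact mul_le_mul_of_nonneg_left (potQ2_not_mem S f g a v hs) hβ

include hnil hS in
theorem hP_sub_hM (s : List ℕ) :
    hP S f g α β s - hM S f g α β s = if s ∈ S then 0 else β * g.1 s := by
  split_ifs with hs
  · rw [hP_mem S hnil hS f g α β s hs, hM_mem S hnil hS f g α β s hs, sub_self]
  · cases s with
    | nil => exact absurd hnil hs
    | cons a v =>
      unfold hP hM
      simp only [grad]
      have h1 := potQ1_add S f g (a :: v)
      have h2 := potQ1_add S f g v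
      rw [potQ_not_mem S g a v hs] at h1
      linear_combination β * h1 - β * h2

theorem alpha_le_one {α β : ℝ} (hαβ : α ^ 2 + β ^ 2 ≤ 1) : α ≤ 1 := by
  nlinarith [sq_nonneg β, sq_nonneg (α - 1)]

include hnil hS in
theorem isTest_hP (hα : 0 ≤ α) (hβ : 0 ≤ β) (hαβ : α ^ 2 + β ^ 2 ≤ 1) (h2 : 2 * β ≤ 1) :
    IsTest m (hP S f g α β) := by
  refine ⟨fun s => ?_, ?_⟩
  · unfold hP
    rw [pot_grad]
    have h1 := abs_le.mp (abs_potP_le S hnil hS f s)
    have h3 := abs_le.mp (abs_potQ_le S hnil hS g s)
    have hα1 := alpha_le_one hαβ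
    unfold potQ1
    rw [abs_le]
    split_ifs with h
    · have h4 : min (potQ S g s) 0 ≤ 0 := min_le_right _ _
      have h5 : -1 ≤ min (potQ S g s) 0 := le_min h3.1 (by norm_num)
      constructor <;> nlinarith
    · push Not at h
      have h4 : 0 ≤ max (potQ S g s) 0 := le_max_right _ _
      have h5 : max (potQ S g s) 0 ≤ 1 := max_le h3.2 (by norm_num)
      constructor <;> nlinarith
  · refine extra_of_le m f.2.2 g.2.2 hαβ (fun s => ?_)
    by_cases hs : s ∈ S
    · rw [hP_mem S hnil hS f g α β s hs]
      nlinarith [sq_nonneg (β * g.1 s)]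
    · have := hP_not_mem S hnil f g α β hβ s hs
      calc hP S f g α β s ^ 2 = |hP S f g α β s| ^ 2 := (sq_abs _).symm
        _ ≤ (β * |g.1 s|) ^ 2 := by gcongr
        _ = β ^ 2 * g.1 s ^ 2 := by rw [mul_pow, sq_abs]
        _ ≤ α ^ 2 * f.1 s ^ 2 + β ^ 2 * g.1 s ^ 2 := by
          have : 0 ≤ α ^ 2 * f.1 s ^ 2 := by positivity
          linarith

include hnil hS in
theorem isTest_hM (hα : 0 ≤ α) (hβ : 0 ≤ β) (hαβ : α ^ 2 + β ^ 2 ≤ 1) (h2 : 2 * β ≤ 1) :
    IsTest m (hM S f g α β) := by
  refine ⟨fun s => ?_, ?_⟩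
  · unfold hM
    rw [pot_grad]
    have h1 := abs_le.mp (abs_potP_le S hnil hS f s)
    have h3 := abs_le.mp (abs_potQ_le S hnil hS g s)
    have hα1 := alpha_le_one hαβ
    unfold potQ2
    rw [abs_le]
    split_ifs with h
    · have h4 : 0 ≤ max (potQ S g s) 0 := le_max_right _ _
      have h5 : max (potQ S g s) 0 ≤ 1 := max_le h3.2 (by norm_num)
      constructor <;> nlinarith
    · push Not at h
      have h4 : min (potQ S g s) 0 ≤ 0 := min_le_right _ _
      have h5 : -1 ≤ min (potQ S g s) 0 := le_min h3.1 (by norm_num)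
      constructor <;> nlinarith
  · refine extra_of_le m f.2.2 g.2.2 hαβ (fun s => ?_)
    by_cases hs : s ∈ S
    · rw [hM_mem S hnil hS f g α β s hs]
      nlinarith [sq_nonneg (β * g.1 s)]
    · have := hM_not_mem S hnil f g α β hβ s hs
      calc hM S f g α β s ^ 2 = |hM S f g α β s| ^ 2 := (sq_abs _).symm
        _ ≤ (β * |g.1 s|) ^ 2 := by gcongr
        _ = β ^ 2 * g.1 s ^ 2 := by rw [mul_pow, sq_abs]
        _ ≤ α ^ 2 * f.1 s ^ 2 + β ^ 2 * g.1 s ^ 2 := by
          have : 0 ≤ α ^ 2 * f.1 s ^ 2 := by positivity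
          linarith

include hnil hS in
theorem main_ineq (hα : 0 ≤ α) (hβ : 0 ≤ β) (hαβ : α ^ 2 + β ^ 2 ≤ 1) (h2 : 2 * β ≤ 1)
    (x : Amb m) (hx : x ∈ Submodule.span ℝ (coordVector m '' (S : Set (List ℕ))))
    (y : Amb m) (hy : y ∈ modelSpace m) (hyS : ∀ s ∈ S, coordFun m s y = 0) :
    α * ev m f x + β / 2 * ev m g y ≤ (‖x + y‖ + ‖x - y‖) / 2 := by
  set p : PotentialTest m := ⟨hP S f g α β, isTest_hP S hnil hS f g α β hα hβ hαβ h2⟩ with hp
  set q : PotentialTest m := ⟨hM S f g α β, isTest_hM S hnil hS f g α β hα hβ hαβ h2⟩ with hq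
  have hxp : ev m p x = α * ev m f x := by
    have hle : Submodule.span ℝ (coordVector m '' (S : Set (List ℕ))) ≤
        LinearMap.ker ((ev m p - α • ev m f : Amb m →L[ℝ] ℝ) : Amb m →ₗ[ℝ] ℝ) := by
      rw [Submodule.span_le]
      rintro _ ⟨s, hs, rfl⟩
      simp only [SetLike.mem_coe, LinearMap.mem_ker, ContinuousLinearMap.coe_coe,
        sub_apply, smul_apply, ev_coord, smul_eq_mul]
      rw [hp]; simp only
      rw [hP_mem S hnil hS f g α β s hs, sub_self]
    have := hle hx
    simp only [LinearMap.mem_ker, ContinuousLinearMap.coe_coe,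
        sub_apply, smul_apply, smul_eq_mul] at this
    linarith
  have hxq : ev m q x = α * ev m f x := by
    have hle : Submodule.span ℝ (coordVector m '' (S : Set (List ℕ))) ≤
        LinearMap.ker ((ev m q - α • ev m f : Amb m →L[ℝ] ℝ) : Amb m →ₗ[ℝ] ℝ) := by
      rw [Submodule.span_le]
      rintro _ ⟨s, hs, rfl⟩
      simp only [SetLike.mem_coe, LinearMap.mem_ker, ContinuousLinearMap.coe_coe,
        sub_apply, smul_apply, ev_coord, smul_eq_mul]
      rw [hq]; simp only
      rw [hM_mem S hnil hS f g α β s hs, sub_self]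
    have := hle hx
    simp only [LinearMap.mem_ker, ContinuousLinearMap.coe_coe,
        sub_apply, smul_apply, smul_eq_mul] at this
    linarith
  have hypq : ev m p y - ev m q y = β * ev m g y := by
    have := eq_zero_of_coord m (ev m p - ev m q - β • ev m g +
      ∑ s ∈ S, (β * g.1 s) • coordFun m s) (fun u => by
        simp only [add_apply, sub_apply,
          smul_apply, sum_apply, ev_coord, smul_eq_mul]
        have h1 : p.1 u - q.1 u = if u ∈ S then 0 else β * g.1 u :=
          hP_sub_hM S hnil hS f g α β u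
        have h3 : ∑ s ∈ S, β * g.1 s * coordFun m s (coordVector m u) =
            if u ∈ S then β * g.1 u else 0 := by
          have : ∀ s ∈ S, β * g.1 s * coordFun m s (coordVector m u) =
              if u = s then β * g.1 u else 0 := by
            intro s _
            split_ifs with h
            · subst h
              rw [mul_assoc, test_mul_coordFun]
            · rw [coordFun_ne m h, mul_zero]
          rw [Finset.sum_congr rfl this, Finset.sum_ite_eq]
        rw [h1, h3]
        split_ifs <;> ring) y hy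
    simp only [add_apply, sub_apply,
          smul_apply, sum_apply, smul_eq_mul] at this
    have h0 : ∑ s ∈ S, β * g.1 s * coordFun m s y = 0 :=
      Finset.sum_eq_zero fun s hs => by rw [hyS s hs, mul_zero]
    rw [h0] at this
    linarith
  have h4 : ev m p (x + y) ≤ ‖x + y‖ := (le_abs_self _).trans (abs_ev_le m p _)
  have h5 : ev m q (x - y) ≤ ‖x - y‖ := (le_abs_self _).trans (abs_ev_le m q _)
  rw [map_add, hxp] at h4
  rw [map_sub, hxq] at h5
  linarith

end Construction

end Crest.Agent.H11
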