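import Mathlib
import Crest.Agent.H11.TreePot

/-! Consequences for the model spaces. -/

namespace Crest.Agent.H11

open Crest.AnalysisR Crest.AnalysisR.TreePotential

instance instCompleteModel (m : PotentialModel) : CompleteSpace (modelSpace m) :=
  (Submodule.isClosed_topologicalClosure _).completeSpace_coe

/-- suffix-closed finite hull -/
noncomputable def hull (T : Finset (List ℕ)) : Finset (List ℕ) :=
  insert [] (T.biUnion fun s => s.tails.toFinset)

theorem nil_mem_hull (T : Finset (List ℕ)) : [] ∈ hull T := Finset.mem_insert_self _ _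

theorem subset_hull (T : Finset (List ℕ)) : T ⊆ hull T := by
  intro s hs
  refine Finset.mem_insert_of_mem (Finset.mem_biUnion.mpr ⟨s, hs, ?_⟩)
  simp

theorem hull_closed (T : Finset (List ℕ)) (a : ℕ) (v : List ℕ) (h : a :: v ∈ hull T) :
    v ∈ hull T := by
  unfold hull at h ⊢
  simp only [Finset.mem_insert, reduceCtorEq, false_or, Finset.mem_biUnion, List.mem_toFinset,
    List.mem_tails] at h ⊢
  obtain ⟨s, hs, hsuf⟩ := h
  exact Or.inr ⟨s, hs, (List.suffix_cons a v).trans hsuf⟩

/-- every element of the span of all coordinate vectors lies in the span of finitely many -/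
theorem exists_hull_of_mem_span (m : PotentialModel) (x : Amb m)
    (hx : x ∈ Submodule.span ℝ (Set.range (coordVector m))) :
    ∃ T : Finset (List ℕ), x ∈ Submodule.span ℝ (coordVector m '' (hull T : Set (List ℕ))) := by
  obtain ⟨t, ht, hxt⟩ := Submodule.mem_span_finite_of_mem_span hx
  have ht' : ∀ z, z ∈ t → ∃ s, coordVector m s = z := fun z hz => ht hz
  choose! k hk using ht'
  refine ⟨t.image k, Submodule.span_mono ?_ hxt⟩
  intro z hz
  exact ⟨k z, subset_hull _ (Finset.mem_image_of_mem k hz), hk z hz⟩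

theorem asym_model (m : PotentialModel) (x : Amb m) (hx : x ∈ modelSpace m) (η : ℝ) (hη : 0 < η) :
    ∃ S : Finset (List ℕ), ∀ y ∈ modelSpace m, (∀ s ∈ S, coordFun m s y = 0) →
      ∀ α β : ℝ, 0 ≤ α → 0 ≤ β → α ^ 2 + β ^ 2 ≤ 1 → 2 * β ≤ 1 →
        α * ‖x‖ + β / 2 * ‖y‖ - η ≤ (‖x + y‖ + ‖x - y‖) / 2 := by
  set ε := η / 4 with hε
  have hεpos : 0 < ε := by positivity
  have hx' : x ∈ closure (Submodule.span ℝ (Set.range (coordVector m)) : Set (Amb m)) := hx
  obtain ⟨x', hx'1, hx'2⟩ := Metric.mem_closure_iff.mp hx' ε hεpos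
  rw [dist_eq_norm] at hx'2
  obtain ⟨T, hT⟩ := exists_hull_of_mem_span m x' hx'1
  refine ⟨hull T, fun y hy hyS α β hα hβ hαβ h2 => ?_⟩
  have hx'm : x' ∈ modelSpace m := Submodule.le_topologicalClosure _ hx'1
  obtain ⟨f, hf⟩ := exists_norming m x' hx'm ε hεpos
  obtain ⟨g, hg⟩ := exists_norming m y hy ε hεpos
  have hmain := main_ineq (hull T) (nil_mem_hull T) (hull_closed T) f g α β hα hβ hαβ h2 x' hT y hy
    hyS
  have hα1 := alpha_le_one hαβ
  have e1 : ‖x' + y‖ ≤ ‖x + y‖ + ε := by
    have : x' + y = (x + y) - (x - x') := by abel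
    rw [this]
    exact (norm_sub_le _ _).trans (by linarith)
  have e2 : ‖x' - y‖ ≤ ‖x - y‖ + ε := by
    have : x' - y = (x - y) - (x - x') := by abel
    rw [this]
    exact (norm_sub_le _ _).trans (by linarith)
  have e3 : ‖x‖ ≤ ‖x'‖ + ε := by
    have : x = x' + (x - x') := by abel
    calc ‖x‖ = ‖x' + (x - x')‖ := by rw [← this]
      _ ≤ ‖x'‖ + ‖x - x'‖ := norm_add_le _ _
      _ ≤ _ := by linarith
  have e4 : α * ‖x‖ ≤ α * ev m f x' + 2 * ε := by
    calc α * ‖x‖ ≤ α * (ev m f x' + 2 * ε) := by gcongr; linarith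
      _ = α * ev m f x' + α * (2 * ε) := by ring
      _ ≤ α * ev m f x' + 1 * (2 * ε) := by gcongr
      _ = _ := by ring
  have e5 : β / 2 * ‖y‖ ≤ β / 2 * ev m g y + ε := by
    calc β / 2 * ‖y‖ ≤ β / 2 * (ev m g y + ε) := by gcongr; linarith
      _ = β / 2 * ev m g y + β / 2 * ε := by ring
      _ ≤ β / 2 * ev m g y + 1 * ε := by gcongr; linarith
      _ = _ := by ring
  have hε4 : η = 4 * ε := by rw [hε]; ring
  linarith

theorem sib_le (m : PotentialModel) (f : PotentialTest m) (r : List ℕ) (A : Finset ℕ) :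
    ∑ n ∈ A, f.1 (n :: r) ^ 2 ≤ 1 := by
  have hinj : ∀ x ∈ A, ∀ y ∈ A, (x :: r) = (y :: r) → x = y := by
    intro x _ y _ h; simpa using h
  obtain ⟨f, hf⟩ := f
  cases m with
  | rootlessSibling => exact hf.2.2 r A
  | rootedSibling => exact hf.2 r A
  | antichain =>
    have h1 := hf.2.2 (A.image (fun n => n :: r)) (by
      intro u hu v hv huv hsuf
      rw [Finset.mem_image] at hu hv
      obtain ⟨a, _, rfl⟩ := hu
      obtain ⟨b, _, rfl⟩ := hv
      exact huv (hsuf.eq_of_length (by simp)))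
    rwa [Finset.sum_image (by intro a ha b hb hab; exact hinj a ha b hb hab)] at h1
  | global =>
    have h1 := hf.2 (A.image (fun n => n :: r))
    rwa [Finset.sum_image (by intro a ha b hb hab; exact hinj a ha b hb hab)] at h1

theorem coordVector_mem (m : PotentialModel) (s : List ℕ) : coordVector m s ∈ modelSpace m :=
  Submodule.le_topologicalClosure _ (Submodule.subset_span ⟨s, rfl⟩)

/-- path sums -/
noncomputable def pathVec (m : PotentialModel) : List ℕ → Amb m
  | [] => coordVector m []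
  | a :: v => pathVec m v + coordVector m (a :: v)

theorem pathVec_mem (m : PotentialModel) (s : List ℕ) : pathVec m s ∈ modelSpace m := by
  induction s with
  | nil => exact coordVector_mem m []
  | cons a v ih => exact Submodule.add_mem _ ih (coordVector_mem m _)

theorem pathVec_apply (m : PotentialModel) (s : List ℕ) (f : PotentialTest m) :
    (pathVec m s : ∀ _ : PotentialTest m, ℝ) f = pathPotential f.1 s := by
  induction s with
  | nil => rfl
  | cons a v ih =>
    unfold pathVec pathPotential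
    rw [lp.coeFn_add, Pi.add_apply, ih]
    rfl

theorem norm_pathVec_le (m : PotentialModel) (s : List ℕ) : ‖pathVec m s‖ ≤ 1 := by
  refine lp.norm_le_of_forall_le zero_le_one fun f => ?_
  rw [pathVec_apply]; exact f.2.1 s

theorem one_le_norm_coordVector (m : PotentialModel) (a : ℕ) (v : List ℕ) :
    1 ≤ ‖coordVector m (a :: v)‖ := by
  have h := abs_ev_le m ⟨dl (a :: v), isTest_dl m (a :: v) (by simp)⟩ (coordVector m (a :: v))
  rw [ev_coord] at h
  simpa [dl] using h

theorem norm_sum_children_le (m : PotentialModel) (r : List ℕ) (A : Finset ℕ) (c : ℕ → ℝ) :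
    ‖∑ n ∈ A, c n • coordVector m (n :: r)‖ ≤ Real.sqrt (∑ n ∈ A, c n ^ 2) := by
  refine lp.norm_le_of_forall_le (Real.sqrt_nonneg _) fun f => ?_
  have h1 : ((∑ n ∈ A, c n • coordVector m (n :: r) : Amb m) : ∀ _ : PotentialTest m, ℝ) f =
      ∑ n ∈ A, c n * f.1 (n :: r) := by
    have : ev m f (∑ n ∈ A, c n • coordVector m (n :: r)) = ∑ n ∈ A, c n * f.1 (n :: r) := by
      rw [map_sum]
      refine Finset.sum_congr rfl fun n _ => ?_
      rw [map_smul, ev_coord, smul_eq_mul]
    rw [← this, ev_apply]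
  rw [h1, Real.norm_eq_abs]
  have h2 := Finset.sum_mul_sq_le_sq_mul_sq A c (fun n => f.1 (n :: r))
  have h3 := sib_le m f r A
  have h0 : 0 ≤ ∑ n ∈ A, c n ^ 2 := Finset.sum_nonneg fun _ _ => sq_nonneg _
  rw [← Real.sqrt_sq_eq_abs]
  refine Real.sqrt_le_sqrt (h2.trans ?_)
  nlinarith

end Crest.Agent.H11
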