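import Mathlib
import Crest.Agent.H11.TreePot2
import Crest.Agent.H11.Reflexive
import Crest.Agent.H11.DiamondLem

/-! The `ℓ²`-sum of finite depth tree potential spaces. -/

namespace Crest.Agent.H11

open Crest.AnalysisR Crest.AnalysisR.TreePotential Filter Topology

/-- vertices of depth at most `N` -/
abbrev TN (N : ℕ) : Type := {s : List ℕ // s.length ≤ N}

/-- coefficient Hilbert space -/
abbrev HN (N : ℕ) : Type := lp (fun _ : TN N => ℝ) 2

/-- restriction of a test -/
noncomputable def restr (N : ℕ) (f : PotentialTest .global) : HN N :=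
  ⟨fun s => f.1 s.1, memℓp_gen' (C := 1) fun A => by
    have h : ∑ u ∈ A.map ⟨Subtype.val, Subtype.val_injective⟩, f.1 u ^ 2 ≤ 1 := f.2.2 _
    rw [Finset.sum_map] at h
    simpa using h⟩

theorem restr_apply (N : ℕ) (f : PotentialTest .global) (s : TN N) : restr N f s = f.1 s.1 := rfl

theorem norm_restr_le (N : ℕ) (f : PotentialTest .global) : ‖restr N f‖ ≤ 1 := by
  refine lp.norm_le_of_forall_sum_le (by norm_num) zero_le_one fun A => ?_
  have h : ∑ u ∈ A.map ⟨Subtype.val, Subtype.val_injective⟩, f.1 u ^ 2 ≤ 1 := f.2.2 _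
  rw [Finset.sum_map] at h
  simpa [restr_apply] using h

/-- the embedding of the coefficient space -/
noncomputable def JN (N : ℕ) : HN N →L[ℝ] Amb .global :=
  LinearMap.mkContinuous
    { toFun := fun a => ⟨fun f => inner ℝ (restr N f) a, memℓp_infty ⟨‖a‖, by
        rintro _ ⟨f, rfl⟩
        refine (norm_inner_le_norm _ _).trans ?_
        exact mul_le_of_le_one_left (norm_nonneg _) (norm_restr_le N f)⟩⟩
      map_add' := fun a b => by
        ext f
        simp only [inner_add_right]
        rfl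
      map_smul' := fun c a => by
        ext f
        simp only [inner_smul_right]
        rfl } 1 (by
    intro a
    rw [one_mul]
    refine lp.norm_le_of_forall_le (norm_nonneg _) fun f => ?_
    refine (norm_inner_le_norm _ _).trans ?_
    exact mul_le_of_le_one_left (norm_nonneg _) (norm_restr_le N f))

theorem JN_apply (N : ℕ) (a : HN N) (f : PotentialTest .global) :
    (JN N a : ∀ _ : PotentialTest .global, ℝ) f = inner ℝ (restr N f) a := rfl

theorem JN_single (N : ℕ) (s : TN N) : JN N (lp.single 2 s (1:ℝ)) = coordVector .global s.1 := by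
  apply lp.ext
  funext f
  rw [JN_apply, lp.inner_single_right, coordVector_apply, restr_apply]
  simp

theorem abs_apply_le (N : ℕ) (a : HN N) (s : TN N) : |a s| ≤ ‖a‖ :=
  lp.norm_apply_le_norm (by norm_num) a s

open Classical in
/-- the extension by zero of a coefficient family, scaled -/
noncomputable def ext0 (N : ℕ) (a : HN N) (c : ℝ) (s : List ℕ) : ℝ :=
  if h : s.length ≤ N then c * a ⟨s, h⟩ else 0

theorem ext0_pot (N : ℕ) (a : HN N) (c : ℝ) (hc : 0 ≤ c) (s : List ℕ) :
    |pathPotential (ext0 N a c) s| ≤ c * ‖a‖ * (min s.length N + 1 : ℕ) := by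
  have hn : 0 ≤ c * ‖a‖ := by positivity
  have hval : ∀ u : List ℕ, |ext0 N a c u| ≤ if u.length ≤ N then c * ‖a‖ else 0 := by
    intro u
    unfold ext0
    split_ifs with h
    · rw [abs_mul, abs_of_nonneg hc]
      exact mul_le_mul_of_nonneg_left (abs_apply_le N a _) hc
    · simp
  induction s with
  | nil =>
    have := hval []
    simp only [List.length_nil, zero_le, if_true] at this
    simpa [pathPotential] using this
  | cons x v ih =>
    simp only [pathPotential]
    refine (abs_add_le _ _).trans ?_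
    have h1 := hval (x :: v)
    by_cases h : (x :: v).length ≤ N
    · rw [if_pos h] at h1
      have h2 : min (x :: v).length N = min v.length N + 1 := by
        simp only [List.length_cons] at h ⊢
        omega
      rw [h2]
      push_cast at ih ⊢
      linarith
    · rw [if_neg h] at h1
      have h2 : min v.length N ≤ min (x :: v).length N := by
        simp only [List.length_cons]; omega
      have h3 : ((min v.length N + 1 : ℕ) : ℝ) ≤ ((min (x :: v).length N + 1 : ℕ) : ℝ) := by
        exact_mod_cast Nat.add_le_add_right h2 1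
      calc |pathPotential (ext0 N a c) v| + |ext0 N a c (x :: v)|
          ≤ c * ‖a‖ * (min v.length N + 1 : ℕ) + 0 := add_le_add ih h1
        _ ≤ c * ‖a‖ * (min (x :: v).length N + 1 : ℕ) := by rw [add_zero]; gcongr

theorem ext0_isTest (N : ℕ) (a : HN N) (c : ℝ) (hc : 0 ≤ c) (h : c * ‖a‖ * (N + 1) ≤ 1) :
    IsTest .global (ext0 N a c) := by
  have hn : 0 ≤ c * ‖a‖ := by positivity
  have hca : c * ‖a‖ ≤ 1 := by
    have : (1:ℝ) ≤ N + 1 := by
      have : (0:ℝ) ≤ N := Nat.cast_nonneg N
      linarith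
    calc c * ‖a‖ = c * ‖a‖ * 1 := by ring
      _ ≤ c * ‖a‖ * (N + 1) := by gcongr
      _ ≤ 1 := h
  refine ⟨fun s => ?_, fun A => ?_⟩
  · refine (ext0_pot N a c hc s).trans ?_
    refine le_trans ?_ h
    have : ((min s.length N + 1 : ℕ) : ℝ) ≤ N + 1 := by
      push_cast
      have : min (s.length : ℝ) N ≤ N := min_le_right _ _
      linarith
    gcongr
  · have h1 : ∑ u ∈ A, ext0 N a c u ^ 2 = ∑ u ∈ A.filter (fun u => u.length ≤ N),
        ext0 N a c u ^ 2 := by
      rw [Finset.sum_filter]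
      refine Finset.sum_congr rfl fun u _ => ?_
      split_ifs with h
      · rfl
      · simp [ext0, h]
    rw [h1, ← Finset.sum_subtype_eq_sum_filter]
    have h2 : ∑ x ∈ Finset.subtype (fun u : List ℕ => u.length ≤ N) A, ext0 N a c x.1 ^ 2 =
        c ^ 2 * ∑ x ∈ Finset.subtype (fun u : List ℕ => u.length ≤ N) A, ‖a x‖ ^ 2 := by
      rw [Finset.mul_sum]
      refine Finset.sum_congr rfl fun x _ => ?_
      unfold ext0
      rw [dif_pos x.2, mul_pow, Real.norm_eq_abs, sq_abs]
    rw [h2]
    calc c ^ 2 * ∑ x ∈ Finset.subtype (fun u : List ℕ => u.length ≤ N) A, ‖a x‖ ^ 2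
        ≤ c ^ 2 * ‖a‖ ^ 2 := by
          gcongr
          exact lp_two_sum_le a _
      _ = (c * ‖a‖) ^ 2 := by ring
      _ ≤ 1 := pow_le_one₀ hn hca

theorem JN_lower (N : ℕ) (a : HN N) : ‖a‖ ≤ (N + 1 : ℝ) * ‖JN N a‖ := by
  rcases eq_or_ne a 0 with rfl | ha
  · simp
  have hapos : 0 < ‖a‖ := norm_pos_iff.mpr ha
  have hNpos : (0:ℝ) < N + 1 := by positivity
  set c : ℝ := 1 / ((N + 1) * ‖a‖) with hc
  have hcpos : 0 < c := by positivity
  have h1 : c * ‖a‖ * (N + 1) ≤ 1 := by
    rw [hc]; apply le_of_eq; field_simp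
  set f : PotentialTest .global := ⟨ext0 N a c, ext0_isTest N a c hcpos.le h1⟩ with hf
  have h2 : restr N f = c • a := by
    apply lp.ext
    funext s
    rw [restr_apply, hf]
    simp only [ext0, s.2, dif_pos]
    rfl
  have h3 := lp.norm_apply_le_norm ENNReal.top_ne_zero (JN N a) f
  rw [JN_apply, h2, inner_smul_left, real_inner_self_eq_norm_sq] at h3
  have h4 : c * ‖a‖ ^ 2 = ‖a‖ / (N + 1) := by rw [hc]; field_simp
  have h5 : ‖a‖ / (N + 1) ≤ ‖JN N a‖ := by
    rw [← h4]
    refine le_trans (le_abs_self _) ?_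
    simpa using h3
  rw [div_le_iff₀ hNpos] at h5
  linarith

theorem JN_antilipschitz (N : ℕ) : AntilipschitzWith (N + 1 : NNReal) (JN N) :=
  ContinuousLinearMap.antilipschitz_of_bound _ fun a => by
    have := JN_lower N a
    simpa using this

theorem JN_injective (N : ℕ) : Function.Injective (JN N) := (JN_antilipschitz N).injective

theorem JN_closed (N : ℕ) : IsClosed (Set.range (JN N)) :=
  (JN_antilipschitz N).isClosed_range (JN N).uniformContinuous

/-- the space of depth `N` -/
noncomputable def EN (N : ℕ) : Submodule ℝ (Amb .global) := LinearMap.range (JN N : HN N →ₗ[ℝ] Amb .global)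

instance completeEN (N : ℕ) : CompleteSpace (EN N) := by
  have h : IsClosed (EN N : Set (Amb .global)) := by
    have : (EN N : Set (Amb .global)) = Set.range (JN N) := by
      unfold EN; ext x; simp
    rw [this]; exact JN_closed N
  exact h.completeSpace_coe

theorem refl_EN (N : ℕ) : Refl (EN N) := by
  have e : HN N ≃L[ℝ] EN N := (JN N).equivRange (JN_injective N) (JN_closed N)
  exact refl_equiv e (refl_hilbert (HN N))

instance separableEN (N : ℕ) : TopologicalSpace.SeparableSpace (EN N) := by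
  have h1 : TopologicalSpace.SeparableSpace (HN N) := separable_sum
  have h2 : TopologicalSpace.IsSeparable (Set.range (JN N)) :=
    TopologicalSpace.isSeparable_range (JN N).continuous
  have h : (EN N : Set (Amb .global)) = Set.range (JN N) := by
    unfold EN; ext x; simp
  have h3 : TopologicalSpace.IsSeparable (EN N : Set (Amb .global)) := by rw [h]; exact h2
  exact h3.separableSpace

theorem coord_mem_EN (N : ℕ) (s : List ℕ) (hs : s.length ≤ N) : coordVector .global s ∈ EN N :=
  ⟨lp.single 2 ⟨s, hs⟩ (1:ℝ), JN_single N ⟨s, hs⟩⟩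

theorem EN_le_model (N : ℕ) : EN N ≤ modelSpace .global := by
  rintro _ ⟨a, rfl⟩
  have h1 := (lp.hasSum_single (p := 2) (by norm_num) a).mapL (JN N)
  have hcl : IsClosed (modelSpace .global : Set (Amb .global)) :=
    Submodule.isClosed_topologicalClosure _
  refine hcl.mem_of_tendsto h1 (Eventually.of_forall fun A => ?_)
  refine Submodule.sum_mem _ fun s _ => ?_
  have : lp.single (E := fun _ : TN N => ℝ) 2 s (a s) = a s • lp.single 2 s (1:ℝ) := by
    rw [← lp.single_smul]; simp
  rw [this, map_smul, JN_single]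
  exact Submodule.smul_mem _ _ (coordVector_mem _ _)

theorem pathVec_mem_EN (N : ℕ) (s : List ℕ) (hs : s.length ≤ N) : pathVec .global s ∈ EN N := by
  induction s with
  | nil => exact coord_mem_EN N [] hs
  | cons a v ih =>
    simp only [List.length_cons] at hs
    exact Submodule.add_mem _ (ih (by omega)) (coord_mem_EN N _ (by simpa using hs))

/-- the square inequality in the model space -/
theorem asym_sq (m : PotentialModel) (x : Amb m) (hx : x ∈ modelSpace m) (η R : ℝ) (hη : 0 < η)
    (hR : 0 < R) :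
    ∃ S : Finset (List ℕ), ∀ y ∈ modelSpace m, (∀ s ∈ S, coordFun m s y = 0) → ‖y‖ ≤ R →
      ‖x‖ ^ 2 + ‖y‖ ^ 2 / 4 - η ≤ (‖x + y‖ ^ 2 + ‖x - y‖ ^ 2) / 2 := by
  set η' := η / (2 * (‖x‖ + R)) with hη'
  have hxR : 0 < ‖x‖ + R := by positivity
  have hη'pos : 0 < η' := by positivity
  have hη'eq : 2 * (‖x‖ + R) * η' = η := by rw [hη']; field_simp
  obtain ⟨S, hS⟩ := asym_model m x hx η' hη'pos
  refine ⟨S, fun y hy hyS hyR => ?_⟩
  have ha := norm_nonneg x
  have hb := norm_nonneg y
  have hjensen : ((‖x + y‖ + ‖x - y‖) / 2) ^ 2 ≤ (‖x + y‖ ^ 2 + ‖x - y‖ ^ 2) / 2 := by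
    nlinarith [sq_nonneg (‖x + y‖ - ‖x - y‖)]
  set m' := (‖x + y‖ + ‖x - y‖) / 2 with hm'
  have hm'0 : 0 ≤ m' := by positivity
  refine le_trans ?_ hjensen
  by_cases hcase : ‖y‖ ^ 2 ≤ 4 / 3 * ‖x‖ ^ 2
  · set q := Real.sqrt (‖x‖ ^ 2 + ‖y‖ ^ 2 / 4) with hq
    have hqsq : q ^ 2 = ‖x‖ ^ 2 + ‖y‖ ^ 2 / 4 := Real.sq_sqrt (by positivity)
    have hq0 : 0 ≤ q := Real.sqrt_nonneg _
    rw [← hqsq]
    rcases hq0.eq_or_lt with h0 | hqpos
    · rw [← h0]
      nlinarith [sq_nonneg m']
    · have hbq : ‖y‖ ≤ q := by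
        rw [hq]
        refine Real.le_sqrt_of_sq_le ?_
        linarith
      have hqle : q ≤ ‖x‖ + R := by
        rw [hq, Real.sqrt_le_left (by positivity)]
        nlinarith
      have h := hS y hy hyS (‖x‖ / q) (‖y‖ / 2 / q) (by positivity) (by positivity)
        (by
          rw [div_pow, div_pow, ← add_div, div_le_one (by positivity), hqsq]
          apply le_of_eq; ring)
        (by
          rw [mul_div_assoc', div_le_one hqpos]
          linarith)
      have e : ‖x‖ / q * ‖x‖ + ‖y‖ / 2 / q / 2 * ‖y‖ = q := by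
        have : ‖x‖ / q * ‖x‖ + ‖y‖ / 2 / q / 2 * ‖y‖ = (‖x‖ ^ 2 + ‖y‖ ^ 2 / 4) / q := by
          field_simp
          ring
        rw [this, ← hqsq]; field_simp
      rw [e] at h
      have h2 : q - η' ≤ m' := h
      have h3 : 2 * q * η' ≤ η := by
        rw [← hη'eq]; gcongr
      by_cases h4 : q ≤ η'
      · nlinarith [sq_nonneg m']
      · push Not at h4
        have h5 : (q - η') ^ 2 ≤ m' ^ 2 := by
          have : 0 ≤ q - η' := by linarith
          gcongr
        nlinarith [sq_nonneg η']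
  · push Not at hcase
    have h1 : ‖y‖ ≤ m' := by
      have e : (2:ℝ) • y = (x + y) - (x - y) := by rw [two_smul]; abel
      have : 2 * ‖y‖ ≤ ‖x + y‖ + ‖x - y‖ := by
        calc 2 * ‖y‖ = ‖(2:ℝ) • y‖ := by rw [norm_smul]; simp
          _ ≤ _ := by rw [e]; exact norm_sub_le _ _
      rw [hm']; linarith
    have h2 : ‖y‖ ^ 2 ≤ m' ^ 2 := by gcongr
    linarith

/-- The `ℓ²` sum. -/
abbrev ES : Type := lp (fun N : ℕ => ↥(EN N)) 2

theorem isCof_ES (M : ℕ) (S : ℕ → Finset (List ℕ)) :
    (RB ES).IsCof {y : ES | ∀ N < M, ∀ s ∈ S N, coordFun .global s ((y N : EN N) : Amb .global) = 0} := by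
  classical
  let G : Finset (ℕ × List ℕ) := (Finset.range M).biUnion fun N => (S N).image fun s => (N, s)
  have h := isCof_ker (X := ES)
    (ContinuousLinearMap.pi (fun q : G => (coordFun .global q.1.2).comp
      ((EN q.1.1).subtypeL.comp (prj (E := fun N : ℕ => ↥(EN N)) q.1.1))))
  convert h using 1
  ext y
  simp only [Set.mem_ofPred_eq]
  constructor
  · intro h
    funext ⟨⟨N, s⟩, hq⟩
    simp only [G, Finset.mem_biUnion, Finset.mem_range, Finset.mem_image, Prod.mk.injEq] at hq
    obtain ⟨N', hN', s', hs', rfl, rfl⟩ := hq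
    exact h N' hN' s' hs'
  · intro h N hN s hs
    exact congrFun h ⟨(N, s), by
      simp only [G, Finset.mem_biUnion, Finset.mem_range, Finset.mem_image, Prod.mk.injEq]
      exact ⟨N, hN, s, hs, rfl, rfl⟩⟩

theorem propA_ES : PropA ES := by
  intro x η R hη hR
  have hx := lp_two_hasSum x
  -- tail
  obtain ⟨M, hM⟩ : ∃ M : ℕ, ‖x‖ ^ 2 - η / 2 < ∑ N ∈ Finset.range M, ‖x N‖ ^ 2 :=
    ((tendsto_order.mp hx.tendsto_sum_nat).1 (‖x‖ ^ 2 - η / 2) (by linarith)).exists
  have hM1 : (0:ℝ) < M + 1 := by positivity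
  set η' := η / (2 * (M + 1)) with hη'
  have hη'pos : 0 < η' := by positivity
  choose S hS using fun N : ℕ => asym_sq .global ((x N : EN N) : Amb .global)
    (EN_le_model N (x N).2) η' R hη'pos hR
  refine ⟨_, isCof_ES M S, fun y hy hyR => ?_⟩
  have hyN : ∀ N, ‖y N‖ ≤ R := fun N => (lp.norm_apply_le_norm (by norm_num) y N).trans hyR
  have hterm : ∀ N, ‖y N‖ ^ 2 / 4 + (if N ∈ Finset.range M then ‖x N‖ ^ 2 - η' else 0) ≤
      (‖(x + y) N‖ ^ 2 + ‖(x - y) N‖ ^ 2) / 2 := by
    intro N
    split_ifs with hN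
    · have h := hS N ((y N : EN N) : Amb .global) (EN_le_model N (y N).2)
        (hy N (Finset.mem_range.mp hN)) (hyN N)
      have e1 : ‖(x + y) N‖ = ‖((x N : EN N) : Amb .global) + ((y N : EN N) : Amb .global)‖ := rfl
      have e2 : ‖(x - y) N‖ = ‖((x N : EN N) : Amb .global) - ((y N : EN N) : Amb .global)‖ := rfl
      have e3 : ‖x N‖ = ‖((x N : EN N) : Amb .global)‖ := rfl
      have e4 : ‖y N‖ = ‖((y N : EN N) : Amb .global)‖ := rfl
      rw [e1, e2, e3, e4]
      linarith
    · have e1 : (x + y) N = x N + y N := rfl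
      have e2 : (x - y) N = x N - y N := rfl
      rw [e1, e2]
      have h1 : 2 * ‖y N‖ ≤ ‖x N + y N‖ + ‖x N - y N‖ := by
        have e : (2:ℝ) • y N = (x N + y N) - (x N - y N) := by rw [two_smul]; abel
        calc 2 * ‖y N‖ = ‖(2:ℝ) • y N‖ := by rw [norm_smul]; simp
          _ ≤ _ := by rw [e]; exact norm_sub_le _ _
      have h2 := norm_nonneg (y N)
      have h3 := norm_nonneg (x N + y N)
      have h4 := norm_nonneg (x N - y N)
      have h5 : (2 * ‖y N‖) ^ 2 ≤ (‖x N + y N‖ + ‖x N - y N‖) ^ 2 := by gcongr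
      nlinarith [sq_nonneg (‖x N + y N‖ - ‖x N - y N‖), sq_nonneg (‖y N‖)]
  have hs1 : HasSum (fun N => ‖y N‖ ^ 2 / 4 +
      (if N ∈ Finset.range M then ‖x N‖ ^ 2 - η' else 0))
      (‖y‖ ^ 2 / 4 + ∑ N ∈ Finset.range M, (‖x N‖ ^ 2 - η')) := by
    refine ((lp_two_hasSum y).div_const 4).add ?_
    have h : HasSum (fun N => if N ∈ Finset.range M then ‖x N‖ ^ 2 - η' else 0)
        (∑ N ∈ Finset.range M, (if N ∈ Finset.range M then ‖x N‖ ^ 2 - η' else 0)) :=
      hasSum_sum_of_ne_finset_zero (fun N hN => if_neg hN)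
    have h2 : ∑ N ∈ Finset.range M, (if N ∈ Finset.range M then ‖x N‖ ^ 2 - η' else 0) =
        ∑ N ∈ Finset.range M, (‖x N‖ ^ 2 - η') :=
      Finset.sum_congr rfl fun N hN => if_pos hN
    rw [h2] at h
    exact h
  have hs2 : HasSum (fun N => (‖(x + y) N‖ ^ 2 + ‖(x - y) N‖ ^ 2) / 2)
      ((‖x + y‖ ^ 2 + ‖x - y‖ ^ 2) / 2) :=
    ((lp_two_hasSum (x + y)).add (lp_two_hasSum (x - y))).div_const 2
  have hle := hasSum_le hterm hs1 hs2
  rw [Finset.sum_sub_distrib, Finset.sum_const, Finset.card_range, nsmul_eq_mul] at hle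
  have hMη : (M:ℝ) * η' ≤ η / 2 := by
    calc (M:ℝ) * η' ≤ (M + 1) * η' := by gcongr; linarith
      _ = η / 2 := by rw [hη']; field_simp
  linarith

theorem reach_ES (n : ℕ) : ∃ z : ES, Reach ES 1 1 n z := by
  -- at coordinate n
  have key : ∀ (k : ℕ) (s : List ℕ) (hs : s.length + k ≤ n),
      Reach ES 1 1 k (inc (E := fun N : ℕ => ↥(EN N)) n ⟨pathVec .global s,
        pathVec_mem_EN n s (by omega)⟩) := by
    have hnorm : ∀ (s : List ℕ) (hs : s.length ≤ n),
        ‖(inc (E := fun N : ℕ => ↥(EN N)) n ⟨pathVec .global s, pathVec_mem_EN n s hs⟩ : ES)‖ ≤ 1 := by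
      intro s hs
      have : ‖(inc (E := fun N : ℕ => ↥(EN N)) n ⟨pathVec .global s, pathVec_mem_EN n s hs⟩ : ES)‖ =
          ‖(⟨pathVec .global s, pathVec_mem_EN n s hs⟩ : EN n)‖ :=
        lp.norm_single (by norm_num) n _
      rw [this]
      exact norm_pathVec_le _ s
    intro k
    induction k with
    | zero => intro s hs; exact hnorm s (by omega)
    | succ k ih =>
      intro s hs
      refine ⟨hnorm s (by omega), fun F hF ε hε => ?_⟩
      have hmem : ∀ j : ℕ, coordVector .global (j :: s) ∈ EN n := fun j =>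
        coord_mem_EN n (j :: s) (by simp only [List.length_cons]; omega)
      obtain ⟨j, y, hy, hyε⟩ := exists_close_of_upper_two
        (fun j => (inc (E := fun N : ℕ => ↥(EN N)) n ⟨coordVector .global (j :: s), hmem j⟩ : ES)) 1
        (fun A a => by
          have h1 := norm_sum_children_le .global s A a
          rw [one_mul]
          refine le_trans (le_of_eq ?_) h1
          have e1 : ∑ j ∈ A, a j • (inc (E := fun N : ℕ => ↥(EN N)) n
              ⟨coordVector .global (j :: s), hmem j⟩ : ES) =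
              inc (E := fun N : ℕ => ↥(EN N)) n
                (∑ j ∈ A, a j • (⟨coordVector .global (j :: s), hmem j⟩ : EN n)) := by
            rw [map_sum]
            exact Finset.sum_congr rfl fun j _ => (map_smul _ _ _).symm
          rw [e1]
          have e2 : ‖(inc (E := fun N : ℕ => ↥(EN N)) n
                (∑ j ∈ A, a j • (⟨coordVector .global (j :: s), hmem j⟩ : EN n)) : ES)‖ =
              ‖∑ j ∈ A, a j • (⟨coordVector .global (j :: s), hmem j⟩ : EN n)‖ :=
            lp.norm_single (by norm_num) n _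
          rw [e2]
          have e3 : ((∑ j ∈ A, a j • (⟨coordVector .global (j :: s), hmem j⟩ : EN n) : EN n) :
              Amb .global) = ∑ j ∈ A, a j • coordVector .global (j :: s) := by
            simp
          rw [← e3]; rfl) F hF ε hε
      have hdiff : (inc (E := fun N : ℕ => ↥(EN N)) n ⟨pathVec .global (j :: s),
          pathVec_mem_EN n (j :: s) (by simp only [List.length_cons]; omega)⟩ : ES) -
          inc (E := fun N : ℕ => ↥(EN N)) n ⟨pathVec .global s, pathVec_mem_EN n s (by omega)⟩ =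
          inc (E := fun N : ℕ => ↥(EN N)) n ⟨coordVector .global (j :: s), hmem j⟩ := by
        rw [← map_sub]
        congr 1
        apply Subtype.ext
        simp [pathVec]
      refine ⟨_, ih (j :: s) (by simp only [List.length_cons]; omega), y, hy, ?_, ?_⟩
      · rw [hdiff]; exact hyε
      · rw [hdiff]
        have : ‖(inc (E := fun N : ℕ => ↥(EN N)) n ⟨coordVector .global (j :: s), hmem j⟩ : ES)‖ =
            ‖(⟨coordVector .global (j :: s), hmem j⟩ : EN n)‖ :=
          lp.norm_single (by norm_num) n _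
        rw [this]
        exact one_le_norm_coordVector _ j s
  exact ⟨_, key n [] (by simp)⟩

end Crest.Agent.H11
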