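import Mathlib
import Crest.Prelude.Def_DaugavetL1
import Crest.Agent.H11.Core

/-! Subspaces of `L¹` with unit ball totally bounded in measure. -/

namespace Crest.Agent.H11

open Crest.AnalysisR Crest.AnalysisR.L1Subspace MeasureTheory Filter Topology

variable {Ω : Type} [MeasurableSpace Ω] {P : Measure Ω} [IsProbabilityMeasure P]

theorem measure_lt_of_measureDist (f g : Lp ℝ 1 P) (ε : ℝ) (h : measureDist P f g < ε) :
    P {z | ε < |(f : Ω → ℝ) z - (g : Ω → ℝ) z|} < ENNReal.ofReal ε := by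
  unfold measureDist at h
  have hne : {a : ℝ | 0 < a ∧
      P {z | a < |(f : Ω → ℝ) z - (g : Ω → ℝ) z|} < ENNReal.ofReal a}.Nonempty := by
    refine ⟨2, by norm_num, lt_of_le_of_lt prob_le_one ?_⟩
    rw [← ENNReal.ofReal_one]
    exact (ENNReal.ofReal_lt_ofReal_iff (by norm_num)).mpr (by norm_num)
  obtain ⟨a, ⟨ha0, ha⟩, haε⟩ := exists_lt_of_csInf_lt hne h
  calc P {z | ε < |(f : Ω → ℝ) z - (g : Ω → ℝ) z|}
      ≤ P {z | a < |(f : Ω → ℝ) z - (g : Ω → ℝ) z|} := by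
        refine measure_mono fun z hz => ?_
        exact haε.trans hz
    _ < ENNReal.ofReal a := ha
    _ ≤ ENNReal.ofReal ε := ENNReal.ofReal_le_ofReal haε.le

/-- clip to `[-1,1]` -/
noncomputable def clip (r : ℝ) : ℝ := max (-1) (min 1 r)

theorem abs_clip_le (r : ℝ) : |clip r| ≤ 1 := by
  unfold clip
  rw [abs_le]
  exact ⟨le_max_left _ _, max_le (by norm_num) (min_le_left _ _)⟩

theorem continuous_clip : Continuous clip := by unfold clip; fun_prop

theorem clip_bdd_mul_integrable {g y : Ω → ℝ} (hg : AEStronglyMeasurable g P) (hy : Integrable y P)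
    (M : ℝ) : Integrable (fun z => clip (M * g z) * y z) P := by
  refine hy.bdd_mul (c := 1) ?_ (Eventually.of_forall fun z => ?_)
  · exact continuous_clip.comp_aestronglyMeasurable (hg.const_mul M)
  · rw [Real.norm_eq_abs]; exact abs_clip_le _

/-- test functionals -/
noncomputable def psi (g : Lp ℝ 1 P) (M : ℕ) : Lp ℝ 1 P →L[ℝ] ℝ :=
  LinearMap.mkContinuous
    { toFun := fun y => ∫ z, clip (M * (g : Ω → ℝ) z) * (y : Ω → ℝ) z ∂P
      map_add' := by
        intro y1 y2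
        rw [← integral_add (clip_bdd_mul_integrable (Lp.aestronglyMeasurable g)
          (L1.integrable_coeFn y1) M) (clip_bdd_mul_integrable (Lp.aestronglyMeasurable g)
          (L1.integrable_coeFn y2) M)]
        refine integral_congr_ae ?_
        filter_upwards [Lp.coeFn_add y1 y2] with z hz
        rw [hz, Pi.add_apply]; ring
      map_smul' := by
        intro c y
        rw [RingHom.id_apply, smul_eq_mul, ← integral_const_mul]
        refine integral_congr_ae ?_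
        filter_upwards [Lp.coeFn_smul c y] with z hz
        rw [hz, Pi.smul_apply, smul_eq_mul]; ring } 1 (by
    intro y
    simp only [LinearMap.coe_mk, AddHom.coe_mk, one_mul]
    rw [L1.norm_eq_integral_norm]
    refine norm_integral_le_of_norm_le (L1.integrable_coeFn y).norm (Eventually.of_forall fun z => ?_)
    rw [norm_mul, Real.norm_eq_abs]
    exact mul_le_of_le_one_left (norm_nonneg _) (abs_clip_le _))

theorem psi_apply (g : Lp ℝ 1 P) (M : ℕ) (y : Lp ℝ 1 P) :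
    psi g M y = ∫ z, clip (M * (g : Ω → ℝ) z) * (y : Ω → ℝ) z ∂P := rfl

theorem brezis_lieb {a Y : Ω → ℝ} {U : ℕ → Ω → ℝ} (ha : Integrable a P)
    (hU : ∀ K, Integrable (U K) P) (hY : Integrable Y P)
    (hlim : ∀ᵐ z ∂P, Tendsto (fun K => U K z) atTop (𝓝 (Y z))) (c : ℝ) :
    Tendsto (fun K => (∫ z, |a z + c * (U K z - Y z)| ∂P) - |c| * ∫ z, |U K z - Y z| ∂P) atTop
      (𝓝 (∫ z, |a z| ∂P)) := by
  have h1 : ∀ K, (∫ z, |a z + c * (U K z - Y z)| ∂P) - |c| * ∫ z, |U K z - Y z| ∂P =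
      ∫ z, (|a z + c * (U K z - Y z)| - |c * (U K z - Y z)|) ∂P := by
    intro K
    have i1 : Integrable (fun z => c * (U K z - Y z)) P := ((hU K).sub hY).const_mul c
    have i2 : Integrable (fun z => |a z + c * (U K z - Y z)|) P := (ha.add i1).abs
    have i3 : Integrable (fun z => |c * (U K z - Y z)|) P := i1.abs
    rw [integral_sub i2 i3]
    congr 1
    rw [← integral_const_mul]
    refine integral_congr_ae (Eventually.of_forall fun z => ?_)
    simp only [abs_mul]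
  simp_rw [h1]
  refine tendsto_integral_of_dominated_convergence (fun z => |a z|) ?_ ha.abs ?_ ?_
  · intro K
    have i1 : Integrable (fun z => c * (U K z - Y z)) P := ((hU K).sub hY).const_mul c
    exact ((ha.add i1).abs.sub i1.abs).aestronglyMeasurable
  · intro K
    refine Eventually.of_forall fun z => ?_
    rw [Real.norm_eq_abs]
    have := abs_abs_sub_abs_le (a z + c * (U K z - Y z)) (c * (U K z - Y z))
    simpa using this
  · filter_upwards [hlim] with z hz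
    have h2 : Tendsto (fun K => U K z - Y z) atTop (𝓝 0) := by
      simpa using hz.sub_const (Y z)
    have h3 : Tendsto (fun K => c * (U K z - Y z)) atTop (𝓝 0) := by
      simpa using h2.const_mul c
    have h4 : Tendsto (fun K => |a z + c * (U K z - Y z)| - |c * (U K z - Y z)|) atTop
        (𝓝 (|a z + 0| - |0|)) := ((h3.const_add (a z)).abs).sub h3.abs
    simpa using h4

theorem l1_subseq {E : Submodule ℝ (Lp ℝ 1 P)}
    (s : ℕ → Finset (Lp ℝ 1 P))
    (hs : ∀ k, ∀ f ∈ E, ‖f‖ ≤ 1 → ∃ g ∈ s k, measureDist P f g < (1 / 2 : ℝ) ^ k)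
    (y : ℕ → Lp ℝ 1 P) (hyE : ∀ n, y n ∈ E) (hy1 : ∀ n, ‖y n‖ ≤ 1) :
    ∃ (g : ℕ → Lp ℝ 1 P) (φ : ℕ → ℕ) (Y : Ω → ℝ), (∀ k, g k ∈ s k) ∧ (∀ K, K ≤ φ K) ∧
      Measurable Y ∧ (∀ᵐ z ∂P, Tendsto (fun K => (g K : Ω → ℝ) z) atTop (𝓝 (Y z))) ∧
      ∀ᵐ z ∂P, Tendsto (fun K => (y (φ K) : Ω → ℝ) z) atTop (𝓝 (Y z)) := by
  -- choose the net points along the ultrafilter
  have h1 : ∀ k, ∃ g ∈ (s k : Set (Lp ℝ 1 P)),
      ∀ᶠ n in (hyperfilter ℕ : Filter ℕ), measureDist P (y n) g < (1 / 2 : ℝ) ^ k := by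
    intro k
    refine (Ultrafilter.eventually_exists_mem_iff (f := hyperfilter ℕ) (s k).finite_toSet
      (P := fun g n => measureDist P (y n) g < (1 / 2 : ℝ) ^ k)).mp ?_
    exact Eventually.of_forall fun n => hs k (y n) (hyE n) (hy1 n)
  choose g hg1 hg2 using h1
  have h2 : ∀ K : ℕ, ∃ n : ℕ, K ≤ n ∧ ∀ k ≤ K, measureDist P (y n) (g k) < (1 / 2 : ℝ) ^ k := by
    intro K
    have hge : ∀ᶠ n in (hyperfilter ℕ : Filter ℕ), K ≤ n := by
      have : ∀ᶠ n in (atTop : Filter ℕ), K ≤ n := eventually_ge_atTop K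
      rw [← Nat.cofinite_eq_atTop] at this
      exact this.filter_mono hyperfilter_le_cofinite
    have hall : ∀ᶠ n in (hyperfilter ℕ : Filter ℕ), ∀ k ∈ Finset.range (K + 1),
        measureDist P (y n) (g k) < (1 / 2 : ℝ) ^ k :=
      (Finset.eventually_all (Finset.range (K + 1))).mpr fun k _ => hg2 k
    obtain ⟨n, hn1, hn2⟩ := (hge.and hall).exists
    exact ⟨n, hn1, fun k hk => hn2 k (Finset.mem_range.mpr (by omega))⟩
  choose φ hφ1 hφ2 using h2
  -- measure estimates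
  have hB : ∀ K, P {z | (1 / 2 : ℝ) ^ K < |(y (φ K) : Ω → ℝ) z - (g K : Ω → ℝ) z|} ≤
      ENNReal.ofReal ((1 / 2 : ℝ) ^ K) := fun K =>
    (measure_lt_of_measureDist _ _ _ (hφ2 K K le_rfl)).le
  have hA : ∀ K, P {z | 2 * (1 / 2 : ℝ) ^ K < |(g (K + 1) : Ω → ℝ) z - (g K : Ω → ℝ) z|} ≤
      ENNReal.ofReal (2 * (1 / 2 : ℝ) ^ K) := by
    intro K
    have e1 := (measure_lt_of_measureDist _ _ _ (hφ2 (K + 1) K (Nat.le_succ K))).le
    have e2 := hB (K + 1)
    have hsub : {z | 2 * (1 / 2 : ℝ) ^ K < |(g (K + 1) : Ω → ℝ) z - (g K : Ω → ℝ) z|} ⊆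
        {z | (1 / 2 : ℝ) ^ K < |(y (φ (K + 1)) : Ω → ℝ) z - (g K : Ω → ℝ) z|} ∪
        {z | (1 / 2 : ℝ) ^ (K + 1) < |(y (φ (K + 1)) : Ω → ℝ) z - (g (K + 1) : Ω → ℝ) z|} := by
      intro z hz
      by_contra hcon
      simp only [Set.mem_union, Set.mem_ofPred_eq, not_or, not_lt] at hcon hz
      have h3 : |(g (K + 1) : Ω → ℝ) z - (g K : Ω → ℝ) z| ≤
          |(y (φ (K + 1)) : Ω → ℝ) z - (g K : Ω → ℝ) z| +
          |(y (φ (K + 1)) : Ω → ℝ) z - (g (K + 1) : Ω → ℝ) z| := by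
        rw [abs_sub_comm ((y (φ (K + 1)) : Ω → ℝ) z) ((g (K + 1) : Ω → ℝ) z)]
        have := abs_add_le ((y (φ (K + 1)) : Ω → ℝ) z - (g K : Ω → ℝ) z)
          ((g (K + 1) : Ω → ℝ) z - (y (φ (K + 1)) : Ω → ℝ) z)
        calc |(g (K + 1) : Ω → ℝ) z - (g K : Ω → ℝ) z| =
            |((y (φ (K + 1)) : Ω → ℝ) z - (g K : Ω → ℝ) z) +
              ((g (K + 1) : Ω → ℝ) z - (y (φ (K + 1)) : Ω → ℝ) z)| := by ring_nf
          _ ≤ _ := this
      have h4 : (1 / 2 : ℝ) ^ (K + 1) ≤ (1 / 2 : ℝ) ^ K := by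
        rw [pow_succ]
        have : (0:ℝ) < (1 / 2 : ℝ) ^ K := by positivity
        linarith
      linarith [hcon.1, hcon.2]
    calc P {z | 2 * (1 / 2 : ℝ) ^ K < |(g (K + 1) : Ω → ℝ) z - (g K : Ω → ℝ) z|}
        ≤ _ := measure_mono hsub
      _ ≤ _ := measure_union_le _ _
      _ ≤ ENNReal.ofReal ((1 / 2 : ℝ) ^ K) + ENNReal.ofReal ((1 / 2 : ℝ) ^ (K + 1)) :=
          add_le_add e1 e2
      _ = ENNReal.ofReal ((1 / 2 : ℝ) ^ K + (1 / 2 : ℝ) ^ (K + 1)) :=
          (ENNReal.ofReal_add (by positivity) (by positivity)).symm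
      _ ≤ ENNReal.ofReal (2 * (1 / 2 : ℝ) ^ K) := by
          refine ENNReal.ofReal_le_ofReal ?_
          rw [pow_succ]
          have : (0:ℝ) < (1 / 2 : ℝ) ^ K := by positivity
          linarith
  have hgeo : Summable (fun K : ℕ => (1 / 2 : ℝ) ^ K) := summable_geometric_two
  have hA' : ∀ᵐ z ∂P, ∀ᶠ K in atTop,
      |(g (K + 1) : Ω → ℝ) z - (g K : Ω → ℝ) z| ≤ 2 * (1 / 2 : ℝ) ^ K := by
    have hsum : (∑' K, P {z | 2 * (1 / 2 : ℝ) ^ K < |(g (K + 1) : Ω → ℝ) z - (g K : Ω → ℝ) z|})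
        ≠ ⊤ := ne_top_of_le_ne_top (hgeo.mul_left 2).tsum_ofReal_ne_top (ENNReal.tsum_le_tsum hA)
    filter_upwards [ae_eventually_notMem hsum] with z hz
    filter_upwards [hz] with K hK
    simpa using hK
  have hB' : ∀ᵐ z ∂P, ∀ᶠ K in atTop,
      |(y (φ K) : Ω → ℝ) z - (g K : Ω → ℝ) z| ≤ (1 / 2 : ℝ) ^ K := by
    have hsum : (∑' K, P {z | (1 / 2 : ℝ) ^ K < |(y (φ K) : Ω → ℝ) z - (g K : Ω → ℝ) z|})
        ≠ ⊤ := ne_top_of_le_ne_top hgeo.tsum_ofReal_ne_top (ENNReal.tsum_le_tsum hB)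
    filter_upwards [ae_eventually_notMem hsum] with z hz
    filter_upwards [hz] with K hK
    simpa using hK
  have hconv : ∀ᵐ z ∂P, ∃ l, Tendsto (fun K => (g K : Ω → ℝ) z) atTop (𝓝 l) := by
    filter_upwards [hA'] with z hz
    obtain ⟨N, hN⟩ := eventually_atTop.mp hz
    have hc : CauchySeq (fun K => (g (K + N) : Ω → ℝ) z) := by
      refine cauchySeq_of_le_geometric (1 / 2) (2 * (1 / 2) ^ N) (by norm_num) fun n => ?_
      rw [dist_comm, Real.dist_eq]
      have := hN (n + N) (by omega)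
      have e : n + 1 + N = n + N + 1 := by ring
      rw [e]
      refine this.trans (le_of_eq ?_)
      rw [pow_add]; ring
    obtain ⟨l, hl⟩ := cauchySeq_tendsto_of_complete hc
    exact ⟨l, (tendsto_add_atTop_iff_nat N).mp hl⟩
  obtain ⟨Y, hY, hYlim⟩ := measurable_limit_of_tendsto_metrizable_ae
    (fun n => (Lp.aestronglyMeasurable (g n)).aemeasurable) hconv
  refine ⟨g, φ, Y, hg1, hφ1, hY, hYlim, ?_⟩
  filter_upwards [hYlim, hB'] with z h3 h4
  have h5 : Tendsto (fun K => (y (φ K) : Ω → ℝ) z - (g K : Ω → ℝ) z) atTop (𝓝 0) := by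
    refine squeeze_zero_norm' ?_ (tendsto_pow_atTop_nhds_zero_of_lt_one (r := (1 / 2 : ℝ))
      (by norm_num) (by norm_num))
    filter_upwards [h4] with K hK
    rwa [Real.norm_eq_abs]
  have h6 := h5.add h3
  simpa using h6

end Crest.Agent.H11
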