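import Mathlib
import Crest.Agent.H11.MeasL1

/-! Subspaces of `L¹` with unit ball totally bounded in measure, II. -/

namespace Crest.Agent.H11

open Crest.AnalysisR Crest.AnalysisR.L1Subspace MeasureTheory Filter Topology

variable {Ω : Type} [MeasurableSpace Ω] {P : Measure Ω} [IsProbabilityMeasure P]

theorem norm_toL1_eq {f : Ω → ℝ} (hf : Integrable f P) :
    ‖(hf.toL1 f : Lp ℝ 1 P)‖ = ∫ z, |f z| ∂P := by
  rw [L1.norm_eq_integral_norm]
  refine integral_congr_ae ?_
  filter_upwards [hf.coeFn_toL1] with z hz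
  rw [hz, Real.norm_eq_abs]

theorem l1_main (E : Submodule ℝ (Lp ℝ 1 P)) [CompleteSpace E]
    (htb : UnitBallTotallyBoundedInMeasure P E) :
    ∃ F : ℕ → Set E, (∀ n, (RB E).IsCof (F n)) ∧
      ∀ y : ℕ → E, (∀ n, y n ∈ F n) → (∀ n, ‖y n‖ = 1) →
        ∃ (φ : ℕ → ℕ) (Y : Lp ℝ 1 P), ‖Y‖ ≤ 1 / 2 ∧ ∀ (x : Lp ℝ 1 P) (c : ℝ),
          Tendsto (fun K => ‖x + c • (y (φ K) : Lp ℝ 1 P)‖) atTop
            (𝓝 (‖x + c • Y‖ + |c| * (1 - ‖Y‖))) := by
  classical
  choose! s hs1 hs2 using fun (k : ℕ) => htb ((1 / 2 : ℝ) ^ k) (by positivity)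
  let G : ℕ → Finset (Lp ℝ 1 P × ℕ) := fun n =>
    ((Finset.range (n + 1)).biUnion s) ×ˢ Finset.range (n + 1)
  refine ⟨fun n => {y : E | ∀ q ∈ G n, psi q.1 q.2 (y : Lp ℝ 1 P) = 0}, fun n => ?_, ?_⟩
  · have h := isCof_ker (X := E)
      (ContinuousLinearMap.pi (fun q : G n => (psi q.1.1 q.1.2).comp E.subtypeL))
    convert h using 1
    ext y
    simp only [Set.mem_ofPred_eq]
    constructor
    · intro h; funext q; exact h q.1 q.2
    · intro h q hq; exact congrFun h ⟨q, hq⟩
  intro y hyF hy1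
  have hy1' : ∀ n, ‖(y n : Lp ℝ 1 P)‖ = 1 := hy1
  obtain ⟨g, φ, Yf, hg, hφ, hYm, hgY, hyY⟩ := l1_subseq s hs2 (fun n => (y n : Lp ℝ 1 P))
    (fun n => (y n).2) (fun n => (hy1' n).le)
  set U : ℕ → Ω → ℝ := fun K => ((y (φ K) : Lp ℝ 1 P) : Ω → ℝ) with hU
  have hUi : ∀ K, Integrable (U K) P := fun K => L1.integrable_coeFn _
  have hUn : ∀ K, ∫ z, |U K z| ∂P = 1 := by
    intro K
    rw [← hy1' (φ K), L1.norm_eq_integral_norm]
    rfl
  -- Fatou
  have hYi : Integrable Yf P := by
    have h1 := Lp.eLpNorm_lim_le_liminf_eLpNorm (p := 1) (μ := P) (f := U)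
      (fun K => (hUi K).aestronglyMeasurable) Yf hyY
    have h2 : ∀ K, eLpNorm (U K) 1 P = 1 := by
      intro K
      have h3 : ‖(y (φ K) : Lp ℝ 1 P)‖ = 1 := hy1' _
      rw [Lp.norm_def] at h3
      exact (ENNReal.toReal_eq_one_iff _).mp h3
    simp_rw [h2] at h1
    rw [liminf_const] at h1
    rw [← memLp_one_iff_integrable]
    exact ⟨hYm.aestronglyMeasurable, lt_of_le_of_lt h1 ENNReal.one_lt_top⟩
  set r := ∫ z, |Yf z| ∂P with hr
  have hr0 : 0 ≤ r := integral_nonneg fun _ => abs_nonneg _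
  -- norm of the difference tends to 1 - r
  have hV : Tendsto (fun K => ∫ z, |U K z - Yf z| ∂P) atTop (𝓝 (1 - r)) := by
    have h1 := brezis_lieb hYi hUi hYi hyY 1
    have h2 : ∀ K, (∫ z, |Yf z + (U K z - Yf z)| ∂P) = 1 := by
      intro K
      refine (integral_congr_ae (Eventually.of_forall fun z => ?_)).trans (hUn K)
      change |Yf z + (U K z - Yf z)| = |U K z|
      congr 1; ring
    simp only [abs_one, one_mul] at h1
    simp only [h2] at h1
    have h3 := h1.const_sub 1
    simpa using h3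
  -- r ≤ 1/2
  have hkey : ∀ k M : ℕ, ∫ z, clip (M * (g k : Ω → ℝ) z) * Yf z ∂P ≤ 1 - r := by
    intro k M
    refine ge_of_tendsto hV ?_
    filter_upwards [eventually_ge_atTop (max k M)] with K hK
    have hk : k ≤ φ K := (le_max_left k M).trans (hK.trans (hφ K))
    have hM : M ≤ φ K := (le_max_right k M).trans (hK.trans (hφ K))
    have h1 : psi (g k) M (y (φ K) : Lp ℝ 1 P) = 0 := by
      refine hyF (φ K) (g k, M) ?_
      simp only [G, Finset.mem_product, Finset.mem_biUnion, Finset.mem_range]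
      exact ⟨⟨k, by omega, hg k⟩, by omega⟩
    rw [psi_apply] at h1
    have h1' : ∫ z, clip (M * (g k : Ω → ℝ) z) * U K z ∂P = 0 := h1
    have i1 := clip_bdd_mul_integrable (Lp.aestronglyMeasurable (g k)) (hUi K) M
    have i2 := clip_bdd_mul_integrable (Lp.aestronglyMeasurable (g k)) hYi M
    have h2 : ∫ z, clip (M * (g k : Ω → ℝ) z) * Yf z ∂P =
        - ∫ z, clip (M * (g k : Ω → ℝ) z) * (U K z - Yf z) ∂P := by
      have : (fun z => clip (M * (g k : Ω → ℝ) z) * (U K z - Yf z)) =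
          fun z => clip (M * (g k : Ω → ℝ) z) * U K z - clip (M * (g k : Ω → ℝ) z) * Yf z := by
        funext z; ring
      rw [this, integral_sub i1 i2, h1']
      ring
    rw [h2]
    calc - ∫ z, clip (M * (g k : Ω → ℝ) z) * (U K z - Yf z) ∂P
        ≤ ‖∫ z, clip (M * (g k : Ω → ℝ) z) * (U K z - Yf z) ∂P‖ := neg_le_abs _
      _ ≤ ∫ z, |U K z - Yf z| ∂P := by
        refine norm_integral_le_of_norm_le ((hUi K).sub hYi).abs (Eventually.of_forall fun z => ?_)
        rw [norm_mul, Real.norm_eq_abs, Real.norm_eq_abs]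
        exact mul_le_of_le_one_left (abs_nonneg _) (abs_clip_le _)
  have hkey2 : ∀ M : ℕ, ∫ z, clip (M * Yf z) * Yf z ∂P ≤ 1 - r := by
    intro M
    have h1 : Tendsto (fun k => ∫ z, clip (M * (g k : Ω → ℝ) z) * Yf z ∂P) atTop
        (𝓝 (∫ z, clip (M * Yf z) * Yf z ∂P)) := by
      refine tendsto_integral_of_dominated_convergence (fun z => |Yf z|) ?_ hYi.abs ?_ ?_
      · intro k
        exact (clip_bdd_mul_integrable (Lp.aestronglyMeasurable (g k)) hYi M).aestronglyMeasurable
      · intro k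
        refine Eventually.of_forall fun z => ?_
        rw [norm_mul, Real.norm_eq_abs, Real.norm_eq_abs]
        exact mul_le_of_le_one_left (abs_nonneg _) (abs_clip_le _)
      · filter_upwards [hgY] with z hz
        exact (((continuous_clip.tendsto _).comp (hz.const_mul (M:ℝ))).mul_const (Yf z))
    exact le_of_tendsto h1 (Eventually.of_forall fun k => hkey k M)
  have hr2 : r ≤ 1 - r := by
    have h1 : Tendsto (fun M : ℕ => ∫ z, clip (M * Yf z) * Yf z ∂P) atTop (𝓝 r) := by
      refine tendsto_integral_of_dominated_convergence (fun z => |Yf z|) ?_ hYi.abs ?_ ?_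
      · intro M
        exact (clip_bdd_mul_integrable hYm.aestronglyMeasurable hYi M).aestronglyMeasurable
      · intro k
        refine Eventually.of_forall fun z => ?_
        rw [norm_mul, Real.norm_eq_abs, Real.norm_eq_abs]
        exact mul_le_of_le_one_left (abs_nonneg _) (abs_clip_le _)
      · refine Eventually.of_forall fun z => ?_
        refine tendsto_const_nhds.congr' ?_
        rcases lt_trichotomy (Yf z) 0 with h | h | h
        · obtain ⟨N, hN⟩ := exists_nat_gt (1 / (- Yf z))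
          filter_upwards [eventually_ge_atTop N] with M hM
          have hM' : (N:ℝ) ≤ M := by exact_mod_cast hM
          have h2 : (M:ℝ) * Yf z ≤ -1 := by
            have h3 : 1 / (- Yf z) < M := hN.trans_le hM'
            rw [div_lt_iff₀ (by linarith)] at h3
            linarith
          have h4 : clip (M * Yf z) = -1 := by
            unfold clip
            rw [min_eq_right (by linarith), max_eq_left h2]
          rw [h4, abs_of_neg h]; ring
        · filter_upwards with M
          rw [h]; simp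
        · obtain ⟨N, hN⟩ := exists_nat_gt (1 / (Yf z))
          filter_upwards [eventually_ge_atTop N] with M hM
          have hM' : (N:ℝ) ≤ M := by exact_mod_cast hM
          have h2 : 1 ≤ (M:ℝ) * Yf z := by
            have h3 : 1 / (Yf z) < M := hN.trans_le hM'
            rw [div_lt_iff₀ h] at h3
            linarith
          have h4 : clip (M * Yf z) = 1 := by
            unfold clip
            rw [min_eq_left h2, max_eq_right (by norm_num)]
          rw [h4, abs_of_pos h]; ring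
    exact le_of_tendsto h1 (Eventually.of_forall fun M => hkey2 M)
  set Y : Lp ℝ 1 P := hYi.toL1 Yf with hYdef
  have hYn : ‖Y‖ = r := norm_toL1_eq hYi
  refine ⟨φ, Y, by rw [hYn]; linarith, fun x c => ?_⟩
  rw [hYn]
  have hxi : Integrable (fun z => (x : Ω → ℝ) z + c * Yf z) P :=
    (L1.integrable_coeFn x).add (hYi.const_mul c)
  have h1 := brezis_lieb hxi hUi hYi hyY c
  have h2 := h1.add (hV.const_mul |c|)
  have e1 : ∀ K, ‖x + c • (y (φ K) : Lp ℝ 1 P)‖ =
      ((∫ z, |(x : Ω → ℝ) z + c * Yf z + c * (U K z - Yf z)| ∂P) -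
        |c| * ∫ z, |U K z - Yf z| ∂P) + |c| * ∫ z, |U K z - Yf z| ∂P := by
    intro K
    rw [sub_add_cancel, L1.norm_eq_integral_norm]
    refine integral_congr_ae ?_
    filter_upwards [Lp.coeFn_add x (c • (y (φ K) : Lp ℝ 1 P)),
      Lp.coeFn_smul c (y (φ K) : Lp ℝ 1 P)] with z h3 h4
    rw [h3, Pi.add_apply, h4, Pi.smul_apply, smul_eq_mul, Real.norm_eq_abs]
    congr 1
    simp only [hU]; ring
  have e2 : ‖x + c • Y‖ = ∫ z, |(x : Ω → ℝ) z + c * Yf z| ∂P := by
    rw [L1.norm_eq_integral_norm]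
    refine integral_congr_ae ?_
    filter_upwards [Lp.coeFn_add x (c • Y), Lp.coeFn_smul c Y, hYi.coeFn_toL1] with z h3 h4 h5
    rw [h3, Pi.add_apply, h4, Pi.smul_apply, smul_eq_mul, Real.norm_eq_abs, hYdef, h5]
  simp_rw [e1]
  rw [e2]
  exact h2

end Crest.Agent.H11
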