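import Mathlib
import Crest.Prelude.Def_TreeProducts
import Crest.Agent.H11.Weak

/-! Path products of independent multipliers. -/

namespace Crest.Agent.H11

open Crest.AnalysisR Crest.AnalysisR.TreeProduct MeasureTheory ProbabilityTheory

variable {ν : Measure ℝ} [IsProbabilityMeasure ν] {Ω : Type} [MeasurableSpace Ω] {μ : Measure Ω}
  [IsProbabilityMeasure μ] {W : List ℕ → Ω → ℝ}

/-- sigma-algebra generated by one multiplier -/
@[reducible] def sg (W : List ℕ → Ω → ℝ) (u : List ℕ) : MeasurableSpace Ω :=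
  MeasurableSpace.comap (W u) inferInstance

theorem measurable_pathProduct_sg (W : List ℕ → Ω → ℝ) (v : List ℕ) :
    Measurable[⨆ u ∈ {u : List ℕ | u <:+ v}, sg W u] (pathProduct W v) := by
  induction v with
  | nil => exact measurable_const
  | cons a v ih =>
    unfold pathProduct
    have h1 : (⨆ u ∈ {u : List ℕ | u <:+ v}, sg W u) ≤
        ⨆ u ∈ {u : List ℕ | u <:+ a :: v}, sg W u := by
      refine biSup_mono fun u hu => ?_
      exact (show u <:+ v from hu).trans (List.suffix_cons a v)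
    have h2 : sg W (a :: v) ≤ ⨆ u ∈ {u : List ℕ | u <:+ a :: v}, sg W u := by
      exact le_biSup (sg W) (show a :: v ∈ {u : List ℕ | u <:+ a :: v} from List.suffix_refl _)
    have h3 : Measurable[⨆ u ∈ {u : List ℕ | u <:+ a :: v}, sg W u] (pathProduct W v) :=
      ih.mono h1 le_rfl
    have h4 : Measurable[⨆ u ∈ {u : List ℕ | u <:+ a :: v}, sg W u] (W (a :: v)) :=
      (comap_measurable (W (a :: v))).mono h2 le_rfl
    exact h3.mul h4

theorem indepFun_of_sg (hW : IsRealization ν μ W) {S T : Set (List ℕ)} (hST : Disjoint S T)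
    {f g : Ω → ℝ} (hf : Measurable[⨆ u ∈ S, sg W u] f) (hg : Measurable[⨆ u ∈ T, sg W u] g) :
    IndepFun f g μ := by
  have h1 : Indep (⨆ u ∈ S, sg W u) (⨆ u ∈ T, sg W u) μ :=
    indep_iSup_of_disjoint (fun u => (hW.1 u).comap_le) hW.2.1.iIndep hST
  rw [IndepFun_iff_Indep]
  exact indep_of_indep_of_le_left (indep_of_indep_of_le_right h1 hg.comap_le) hf.comap_le

theorem not_suffix_child (n : ℕ) (v : List ℕ) : ¬ (n :: v) <:+ v := by
  intro h
  have := h.length_le
  simp at this

theorem indep_child (hW : IsRealization ν μ W) (n : ℕ) (v : List ℕ) {φ ψ : ℝ → ℝ}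
    (hφ : Measurable φ) (hψ : Measurable ψ) :
    IndepFun (fun ω => φ (pathProduct W v ω)) (fun ω => ψ (W (n :: v) ω)) μ := by
  refine indepFun_of_sg hW (S := {u | u <:+ v}) (T := {n :: v}) ?_ ?_ ?_
  · rw [Set.disjoint_singleton_right]; exact not_suffix_child n v
  · exact hφ.comp (measurable_pathProduct_sg W v)
  · have : (⨆ u ∈ ({n :: v} : Set (List ℕ)), sg W u) = sg W (n :: v) := by simp
    rw [this]
    exact hψ.comp (comap_measurable (W (n :: v)))

theorem indep_two (hW : IsRealization ν μ W) {n k : ℕ} (hnk : n ≠ k) (v : List ℕ) {φ ψ χ : ℝ → ℝ}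
    (hφ : Measurable φ) (hψ : Measurable ψ) (hχ : Measurable χ) :
    IndepFun (fun ω => φ (pathProduct W v ω) * χ (W (k :: v) ω)) (fun ω => ψ (W (n :: v) ω)) μ := by
  refine indepFun_of_sg hW (S := insert (k :: v) {u | u <:+ v}) (T := {n :: v}) ?_ ?_ ?_
  · rw [Set.disjoint_singleton_right, Set.mem_insert_iff, not_or]
    refine ⟨?_, not_suffix_child n v⟩
    simpa using hnk
  · have h1 : (⨆ u ∈ {u : List ℕ | u <:+ v}, sg W u) ≤
        ⨆ u ∈ (insert (k :: v) {u : List ℕ | u <:+ v}), sg W u :=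
      biSup_mono fun u hu => Set.mem_insert_of_mem _ hu
    have h2 : sg W (k :: v) ≤ ⨆ u ∈ (insert (k :: v) {u : List ℕ | u <:+ v}), sg W u :=
      le_biSup (sg W) (Set.mem_insert _ _)
    have h3 : Measurable[⨆ u ∈ (insert (k :: v) {u : List ℕ | u <:+ v}), sg W u]
        (fun ω => φ (pathProduct W v ω)) :=
      (hφ.comp (measurable_pathProduct_sg W v)).mono h1 le_rfl
    have h4 : Measurable[⨆ u ∈ (insert (k :: v) {u : List ℕ | u <:+ v}), sg W u]
        (fun ω => χ (W (k :: v) ω)) :=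
      (hχ.comp (comap_measurable (W (k :: v)))).mono h2 le_rfl
    exact h3.mul h4
  · have : (⨆ u ∈ ({n :: v} : Set (List ℕ)), sg W u) = sg W (n :: v) := by simp
    rw [this]
    exact hψ.comp (comap_measurable (W (n :: v)))

theorem integral_W (hW : IsRealization ν μ W) (v : List ℕ) (hv : v ≠ []) {φ : ℝ → ℝ}
    (hφ : Measurable φ) : ∫ ω, φ (W v ω) ∂μ = ∫ x, φ x ∂ν := by
  rw [← hW.2.2 v hv, integral_map (hW.1 v).aemeasurable hφ.aestronglyMeasurable]

theorem integrable_W (hW : IsRealization ν μ W) (v : List ℕ) (hv : v ≠ []) {φ : ℝ → ℝ}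
    (hφ : Measurable φ) (hi : Integrable φ ν) : Integrable (fun ω => φ (W v ω)) μ := by
  rw [← hW.2.2 v hv] at hi
  exact (integrable_map_measure hφ.aestronglyMeasurable (hW.1 v).aemeasurable).mp hi

theorem measurable_pathProduct (hW : IsRealization ν μ W) (v : List ℕ) :
    Measurable (pathProduct W v) := by
  induction v with
  | nil => exact measurable_const
  | cons a v ih => exact ih.mul (hW.1 _)

theorem integrable_id_of_sq (hm2 : Integrable (fun x : ℝ => x ^ 2) ν) :
    Integrable (fun x : ℝ => x) ν := by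
  have h : MemLp (fun x : ℝ => x) 2 ν :=
    (memLp_two_iff_integrable_sq measurable_id.aestronglyMeasurable).mpr hm2
  exact h.integrable one_le_two

theorem pathProduct_sq_integrable (hW : IsRealization ν μ W)
    (hm2 : Integrable (fun x : ℝ => x ^ 2) ν) (v : List ℕ) :
    Integrable (fun ω => pathProduct W v ω ^ 2) μ := by
  induction v with
  | nil => simp [pathProduct]
  | cons a v ih =>
    have h1 := (indep_child hW a v (φ := fun x => x ^ 2) (ψ := fun x => x ^ 2)
      (by fun_prop) (by fun_prop)).integrable_mul ih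
      (integrable_W hW (a :: v) (by simp) (by fun_prop) hm2)
    refine h1.congr (Filter.Eventually.of_forall fun ω => ?_)
    simp only [Pi.mul_apply, pathProduct]; ring

theorem pathProduct_integrable (hW : IsRealization ν μ W)
    (hm2 : Integrable (fun x : ℝ => x ^ 2) ν) (v : List ℕ) :
    Integrable (pathProduct W v) μ := by
  have h : MemLp (pathProduct W v) 2 μ :=
    (memLp_two_iff_integrable_sq (measurable_pathProduct hW v).aestronglyMeasurable).mpr
      (pathProduct_sq_integrable hW hm2 v)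
  exact h.integrable one_le_two

theorem integral_abs_nu (hpos : ν (Set.Ioi 0) = 1) (hmean : ∫ x, x ∂ν = 1) :
    ∫ x, |x| ∂ν = 1 := by
  rw [← hmean]
  refine integral_congr_ae ?_
  have : ∀ᵐ x ∂ν, x ∈ Set.Ioi (0:ℝ) := by
    rw [← prob_compl_eq_zero_iff measurableSet_Ioi] at hpos
    exact hpos
  filter_upwards [this] with x hx
  exact abs_of_pos hx

theorem integral_abs_pathProduct (hW : IsRealization ν μ W)
    (hpos : ν (Set.Ioi 0) = 1) (hmean : ∫ x, x ∂ν = 1) (v : List ℕ) :
    ∫ ω, |pathProduct W v ω| ∂μ = 1 := by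
  induction v with
  | nil => simp [pathProduct]
  | cons a v ih =>
    have h1 := (indep_child hW a v (φ := fun x => |x|) (ψ := fun x => |x|)
      (by fun_prop) (by fun_prop)).integral_mul_eq_mul_integral
      ((measurable_pathProduct hW v).abs.aestronglyMeasurable)
      ((hW.1 _).abs.aestronglyMeasurable)
    rw [ih, integral_W hW (a :: v) (by simp) (by fun_prop), integral_abs_nu hpos hmean] at h1
    rw [← mul_one (1:ℝ), ← h1]
    refine integral_congr_ae (Filter.Eventually.of_forall fun ω => ?_)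
    simp only [Pi.mul_apply, pathProduct, abs_mul]

theorem integral_abs_increment (hW : IsRealization ν μ W)
    (hpos : ν (Set.Ioi 0) = 1) (hmean : ∫ x, x ∂ν = 1) (a : ℕ) (v : List ℕ) :
    ∫ ω, |pathProduct W (a :: v) ω - pathProduct W v ω| ∂μ = ∫ x, |x - 1| ∂ν := by
  have h1 := (indep_child hW a v (φ := fun x => |x|) (ψ := fun x => |x - 1|)
      (by fun_prop) (by fun_prop)).integral_mul_eq_mul_integral
      ((measurable_pathProduct hW v).abs.aestronglyMeasurable)
      (((hW.1 _).sub_const 1).abs.aestronglyMeasurable)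
  rw [integral_abs_pathProduct hW hpos hmean, integral_W hW (a :: v) (φ := fun x => |x - 1|)
    (by simp) (by fun_prop), one_mul] at h1
  rw [← h1]
  refine integral_congr_ae (Filter.Eventually.of_forall fun ω => ?_)
  simp only [Pi.mul_apply, pathProduct, ← abs_mul]
  ring_nf

theorem increment_pos (hnc : ∀ c : ℝ, ν ≠ Measure.dirac c)
    (hm2 : Integrable (fun x : ℝ => x ^ 2) ν) : 0 < ∫ x, |x - 1| ∂ν := by
  have hint : Integrable (fun x : ℝ => |x - 1|) ν :=
    ((integrable_id_of_sq hm2).sub (integrable_const 1)).abs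
  have h0 : 0 ≤ ∫ x, |x - 1| ∂ν := integral_nonneg fun x => abs_nonneg _
  rcases h0.eq_or_lt with h | h
  · exfalso
    have h1 := (integral_eq_zero_iff_of_nonneg (fun x => abs_nonneg _) hint).mp h.symm
    apply hnc 1
    have h2 : ∀ᵐ x ∂ν, x = 1 := by
      filter_upwards [h1] with x hx
      have : |x - 1| = 0 := hx
      rw [abs_eq_zero] at this
      linarith
    ext s hs
    by_cases h1s : (1:ℝ) ∈ s
    · rw [Measure.dirac_apply' _ hs, Set.indicator_of_mem h1s, Pi.one_apply]
      rw [← prob_compl_eq_zero_iff hs]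
      refine measure_mono_null ?_ h2
      intro x hx h3
      exact hx (by rw [h3]; exact h1s)
    · rw [Measure.dirac_apply' _ hs, Set.indicator_of_notMem h1s]
      refine measure_mono_null ?_ h2
      intro x hx h3
      exact h1s (by rw [← h3]; exact hx)
  · exact h

/-- the `L¹` class of a path product -/
noncomputable def pp (hW : IsRealization ν μ W) (hm2 : Integrable (fun x : ℝ => x ^ 2) ν)
    (v : List ℕ) : Lp ℝ 1 μ := (pathProduct_integrable hW hm2 v).toL1 _

theorem pp_coe (hW : IsRealization ν μ W) (hm2 : Integrable (fun x : ℝ => x ^ 2) ν)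
    (v : List ℕ) : (pp hW hm2 v : Ω → ℝ) =ᵐ[μ] pathProduct W v :=
  (pathProduct_integrable hW hm2 v).coeFn_toL1

theorem pp_mem (hW : IsRealization ν μ W) (hm2 : Integrable (fun x : ℝ => x ^ 2) ν)
    (v : List ℕ) : pp hW hm2 v ∈ productSpan μ W :=
  Submodule.le_topologicalClosure _ (Submodule.subset_span ⟨v, pp_coe hW hm2 v⟩)

theorem norm_pp (hW : IsRealization ν μ W) (hpos : ν (Set.Ioi 0) = 1) (hmean : ∫ x, x ∂ν = 1)
    (hm2 : Integrable (fun x : ℝ => x ^ 2) ν) (v : List ℕ) : ‖pp hW hm2 v‖ = 1 := by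
  rw [L1.norm_eq_integral_norm, ← integral_abs_pathProduct hW hpos hmean v]
  refine integral_congr_ae ?_
  filter_upwards [pp_coe hW hm2 v] with ω hω
  rw [hω, Real.norm_eq_abs]

theorem norm_pp_sub (hW : IsRealization ν μ W) (hpos : ν (Set.Ioi 0) = 1) (hmean : ∫ x, x ∂ν = 1)
    (hm2 : Integrable (fun x : ℝ => x ^ 2) ν) (a : ℕ) (v : List ℕ) :
    ‖pp hW hm2 (a :: v) - pp hW hm2 v‖ = ∫ x, |x - 1| ∂ν := by
  rw [L1.norm_eq_integral_norm, ← integral_abs_increment hW hpos hmean a v]
  refine integral_congr_ae ?_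
  filter_upwards [pp_coe hW hm2 v, pp_coe hW hm2 (a :: v),
    Lp.coeFn_sub (pp hW hm2 (a :: v)) (pp hW hm2 v)] with ω h1 h2 h3
  rw [h3, Pi.sub_apply, h1, h2, Real.norm_eq_abs]

theorem integral_sq_sum (hW : IsRealization ν μ W) (hmean : ∫ x, x ∂ν = 1)
    (hm2 : Integrable (fun x : ℝ => x ^ 2) ν) (v : List ℕ) (A : Finset ℕ) (c : ℕ → ℝ) :
    Integrable (fun ω => (∑ n ∈ A, c n * (pathProduct W v ω * (W (n :: v) ω - 1))) ^ 2) μ ∧
    ∫ ω, (∑ n ∈ A, c n * (pathProduct W v ω * (W (n :: v) ω - 1))) ^ 2 ∂μ =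
      (∫ ω, pathProduct W v ω ^ 2 ∂μ) * (∫ x, (x - 1) ^ 2 ∂ν) * ∑ n ∈ A, c n ^ 2 := by
  have hid := integrable_id_of_sq hm2
  have hid1 : Integrable (fun x : ℝ => x - 1) ν := hid.sub (integrable_const 1)
  have hid2 : Integrable (fun x : ℝ => (x - 1) ^ 2) ν := by
    have : (fun x : ℝ => (x - 1) ^ 2) = fun x => x ^ 2 - 2 * x + 1 := by funext x; ring
    rw [this]
    exact (hm2.sub (hid.const_mul 2)).add (integrable_const 1)
  have hM2 := pathProduct_sq_integrable hW hm2 v
  have hMm := measurable_pathProduct hW v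
  -- off diagonal
  have hoff : ∀ n k : ℕ, n ≠ k →
      Integrable (fun ω => (pathProduct W v ω ^ 2 * (W (k :: v) ω - 1)) * (W (n :: v) ω - 1)) μ ∧
      ∫ ω, (pathProduct W v ω ^ 2 * (W (k :: v) ω - 1)) * (W (n :: v) ω - 1) ∂μ = 0 := by
    intro n k hnk
    have i1 : Integrable (fun ω => pathProduct W v ω ^ 2 * (W (k :: v) ω - 1)) μ :=
      (indep_child hW k v (φ := fun x => x ^ 2) (ψ := fun x => x - 1)
        (by fun_prop) (by fun_prop)).integrable_mul hM2
        (integrable_W hW (k :: v) (φ := fun x => x - 1) (by simp) (by fun_prop) hid1)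
    have i2 : Integrable (fun ω => W (n :: v) ω - 1) μ :=
      integrable_W hW (n :: v) (φ := fun x => x - 1) (by simp) (by fun_prop) hid1
    have hind := indep_two hW hnk v (φ := fun x => x ^ 2) (ψ := fun x => x - 1)
      (χ := fun x => x - 1) (by fun_prop) (by fun_prop) (by fun_prop)
    refine ⟨hind.integrable_mul i1 i2, ?_⟩
    have := hind.integral_mul_eq_mul_integral i1.aestronglyMeasurable i2.aestronglyMeasurable
    rw [integral_W hW (n :: v) (φ := fun x => x - 1) (by simp) (by fun_prop),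
      integral_sub hid (integrable_const 1), hmean] at this
    simp only [integral_const, probReal_univ, smul_eq_mul, mul_one, sub_self, mul_zero] at this
    exact this
  have hdiag : ∀ n : ℕ,
      Integrable (fun ω => pathProduct W v ω ^ 2 * (W (n :: v) ω - 1) ^ 2) μ ∧
      ∫ ω, pathProduct W v ω ^ 2 * (W (n :: v) ω - 1) ^ 2 ∂μ =
        (∫ ω, pathProduct W v ω ^ 2 ∂μ) * (∫ x, (x - 1) ^ 2 ∂ν) := by
    intro n
    have hind := indep_child hW n v (φ := fun x => x ^ 2) (ψ := fun x => (x - 1) ^ 2)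
        (by fun_prop) (by fun_prop)
    have i2 : Integrable (fun ω => (W (n :: v) ω - 1) ^ 2) μ :=
      integrable_W hW (n :: v) (φ := fun x => (x - 1) ^ 2) (by simp) (by fun_prop) hid2
    refine ⟨hind.integrable_mul hM2 i2, ?_⟩
    have := hind.integral_mul_eq_mul_integral hM2.aestronglyMeasurable i2.aestronglyMeasurable
    rw [integral_W hW (n :: v) (φ := fun x => (x - 1) ^ 2) (by simp) (by fun_prop)] at this
    exact this
  have hterm : ∀ n k : ℕ, Integrable (fun ω => (c n * (pathProduct W v ω * (W (n :: v) ω - 1))) *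
      (c k * (pathProduct W v ω * (W (k :: v) ω - 1)))) μ ∧
      ∫ ω, (c n * (pathProduct W v ω * (W (n :: v) ω - 1))) *
      (c k * (pathProduct W v ω * (W (k :: v) ω - 1))) ∂μ =
      if n = k then c n ^ 2 * ((∫ ω, pathProduct W v ω ^ 2 ∂μ) * (∫ x, (x - 1) ^ 2 ∂ν)) else 0 := by
    intro n k
    split_ifs with h
    · subst h
      have e : (fun ω => (c n * (pathProduct W v ω * (W (n :: v) ω - 1))) *
        (c n * (pathProduct W v ω * (W (n :: v) ω - 1)))) =
        fun ω => c n ^ 2 * (pathProduct W v ω ^ 2 * (W (n :: v) ω - 1) ^ 2) := by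
        funext ω; ring
      rw [e]
      exact ⟨(hdiag n).1.const_mul _, by rw [integral_const_mul, (hdiag n).2]⟩
    · have e : (fun ω => (c n * (pathProduct W v ω * (W (n :: v) ω - 1))) *
        (c k * (pathProduct W v ω * (W (k :: v) ω - 1)))) =
        fun ω => (c n * c k) * ((pathProduct W v ω ^ 2 * (W (k :: v) ω - 1)) *
          (W (n :: v) ω - 1)) := by
        funext ω; ring
      rw [e]
      exact ⟨(hoff n k h).1.const_mul _, by rw [integral_const_mul, (hoff n k h).2, mul_zero]⟩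
  have e : (fun ω => (∑ n ∈ A, c n * (pathProduct W v ω * (W (n :: v) ω - 1))) ^ 2) =
      fun ω => ∑ n ∈ A, ∑ k ∈ A, (c n * (pathProduct W v ω * (W (n :: v) ω - 1))) *
      (c k * (pathProduct W v ω * (W (k :: v) ω - 1))) := by
    funext ω; rw [sq, Finset.sum_mul_sum]
  rw [e]
  refine ⟨integrable_finsetSum _ fun n _ => integrable_finsetSum _ fun k _ => (hterm n k).1, ?_⟩
  rw [integral_finsetSum _ fun n _ => integrable_finsetSum _ fun k _ => (hterm n k).1]
  rw [Finset.mul_sum]
  refine Finset.sum_congr rfl fun n hn => ?_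
  rw [integral_finsetSum _ fun k _ => (hterm n k).1]
  rw [Finset.sum_congr rfl fun k _ => (hterm n k).2, Finset.sum_ite_eq]
  rw [if_pos hn]; ring

theorem norm_sum_increments_le (hW : IsRealization ν μ W) (hmean : ∫ x, x ∂ν = 1)
    (hm2 : Integrable (fun x : ℝ => x ^ 2) ν) (v : List ℕ) (A : Finset ℕ) (c : ℕ → ℝ) :
    ‖∑ n ∈ A, c n • (pp hW hm2 (n :: v) - pp hW hm2 v)‖ ≤
      Real.sqrt ((∫ ω, pathProduct W v ω ^ 2 ∂μ) * (∫ x, (x - 1) ^ 2 ∂ν)) *
        Real.sqrt (∑ n ∈ A, c n ^ 2) := by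
  obtain ⟨hint, hval⟩ := integral_sq_sum hW hmean hm2 v A c
  rw [← Real.sqrt_mul (mul_nonneg (integral_nonneg fun _ => sq_nonneg _)
    (integral_nonneg fun _ => sq_nonneg _)), ← hval]
  set g : Ω → ℝ := fun ω => ∑ n ∈ A, c n * (pathProduct W v ω * (W (n :: v) ω - 1)) with hg
  have hgm : Measurable g := by
    refine Finset.measurable_sum _ fun n _ => ?_
    exact ((measurable_pathProduct hW v).mul ((hW.1 _).sub_const 1)).const_mul _
  have hcoe : ((∑ n ∈ A, c n • (pp hW hm2 (n :: v) - pp hW hm2 v) : Lp ℝ 1 μ) : Ω → ℝ) =ᵐ[μ] g := by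
    have h1 : ∀ B : Finset ℕ, ((∑ n ∈ B, c n • (pp hW hm2 (n :: v) - pp hW hm2 v) : Lp ℝ 1 μ) :
        Ω → ℝ) =ᵐ[μ] fun ω => ∑ n ∈ B, c n * (pathProduct W v ω * (W (n :: v) ω - 1)) := by
      intro B
      induction B using Finset.induction_on with
      | empty =>
        simp only [Finset.sum_empty]
        exact Lp.coeFn_zero _ _ _
      | insert n B hn ih =>
        rw [Finset.sum_insert hn]
        filter_upwards [ih, Lp.coeFn_add (c n • (pp hW hm2 (n :: v) - pp hW hm2 v))
          (∑ n ∈ B, c n • (pp hW hm2 (n :: v) - pp hW hm2 v)),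
          Lp.coeFn_smul (c n) (pp hW hm2 (n :: v) - pp hW hm2 v),
          Lp.coeFn_sub (pp hW hm2 (n :: v)) (pp hW hm2 v), pp_coe hW hm2 v,
          pp_coe hW hm2 (n :: v)] with ω h1 h2 h3 h4 h5 h6
        rw [h2, Pi.add_apply, h1, h3, Pi.smul_apply, h4, Pi.sub_apply, h5, h6,
          Finset.sum_insert hn]
        simp only [pathProduct, smul_eq_mul]; ring
    exact h1 A
  rw [L1.norm_eq_integral_norm]
  have h2 : ∫ ω, ‖((∑ n ∈ A, c n • (pp hW hm2 (n :: v) - pp hW hm2 v) : Lp ℝ 1 μ) : Ω → ℝ) ω‖ ∂μ =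
      ∫ ω, |g ω| ∂μ := by
    refine integral_congr_ae ?_
    filter_upwards [hcoe] with ω hω
    rw [hω, Real.norm_eq_abs]
  rw [h2]
  have hmem : MemLp g 2 μ := (memLp_two_iff_integrable_sq hgm.aestronglyMeasurable).mpr hint
  have hgi : Integrable (fun ω => |g ω|) μ := (hmem.integrable one_le_two).abs
  -- variance inequality
  refine Real.le_sqrt_of_sq_le ?_
  have h3 : 0 ≤ ∫ ω, (|g ω| - ∫ ω', |g ω'| ∂μ) ^ 2 ∂μ := integral_nonneg fun _ => sq_nonneg _
  set I := ∫ ω', |g ω'| ∂μ with hI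
  have h4 : (fun ω => (|g ω| - I) ^ 2) = fun ω => g ω ^ 2 - 2 * I * |g ω| + I ^ 2 := by
    funext ω
    rw [sub_sq, sq_abs]; ring
  have hint' : Integrable (fun ω => g ω ^ 2) μ := hint
  have hint2 : Integrable (fun ω => g ω ^ 2 - 2 * I * |g ω|) μ := hint'.sub (hgi.const_mul _)
  rw [h4, integral_add hint2 (integrable_const _),
    integral_sub hint' (hgi.const_mul _), integral_const_mul, ← hI] at h3
  simp only [integral_const, probReal_univ, smul_eq_mul, one_mul] at h3
  nlinarith

end Crest.Agent.H11
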